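import Vale.Agent.P235.R2.H582.KprSpec

/-!
P235-M (helper907 for helper582): row R3 of the Klein-Plotkin-Rao rows.
-/

set_option autoImplicit false

namespace Vale.Agent.P235.Kpr

/-- (R3) -/
theorem rowCount : RowCount := by
  intro a b t Δ N hab hΔ hN
  wlog h : a ≤ b generalizing a b
  · have e : {k : Fin N | ⌊(a + (k : ℕ) * Δ / N) / Δ⌋ ≠ ⌊(b + (k : ℕ) * Δ / N) / Δ⌋} =
        {k : Fin N | ⌊(b + (k : ℕ) * Δ / N) / Δ⌋ ≠ ⌊(a + (k : ℕ) * Δ / N) / Δ⌋} := by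
      ext k
      exact ne_comm
    rw [e]
    exact this b a (by rwa [abs_sub_comm]) (by linarith)
  have hN' : (0 : ℝ) < N := by exact_mod_cast hN
  have key : ∀ (c : ℝ) (k : ℕ), (N : ℝ) * ((c + (k : ℕ) * Δ / N) / Δ) = N * c / Δ + k := by
    intro c k
    field_simp
  have hinj : Function.Injective
      (fun k : Fin N => (N : ℤ) * ⌊(b + (k : ℕ) * Δ / N) / Δ⌋ - ((k : ℕ) : ℤ)) := by
    intro k k' hk
    have h1 : ((k : ℕ) : ℤ) - ((k' : ℕ) : ℤ) = (N : ℤ) *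
        (⌊(b + (k : ℕ) * Δ / N) / Δ⌋ - ⌊(b + (k' : ℕ) * Δ / N) / Δ⌋) := by
      have := hk
      simp only at this
      linarith
    have h2 : ((k : ℕ) : ℤ) < N := by exact_mod_cast k.2
    have h3 : ((k' : ℕ) : ℤ) < N := by exact_mod_cast k'.2
    have h4 : (0 : ℤ) ≤ ((k : ℕ) : ℤ) := by positivity
    have h5 : (0 : ℤ) ≤ ((k' : ℕ) : ℤ) := by positivity
    have h6 : ((k : ℕ) : ℤ) - ((k' : ℕ) : ℤ) = 0 := by
      refine Int.eq_zero_of_abs_lt_dvd (m := (N : ℤ)) ⟨_, h1⟩ ?_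
      rw [abs_lt]
      constructor <;> linarith
    exact Fin.ext (by omega)
  have hmem : ∀ k ∈ {k : Fin N | ⌊(a + (k : ℕ) * Δ / N) / Δ⌋ ≠ ⌊(b + (k : ℕ) * Δ / N) / Δ⌋},
      (fun k : Fin N => (N : ℤ) * ⌊(b + (k : ℕ) * Δ / N) / Δ⌋ - ((k : ℕ) : ℤ)) k ∈
        ((Finset.Ioc ⌊(N : ℝ) * a / Δ⌋ ⌊(N : ℝ) * b / Δ⌋ : Finset ℤ) : Set ℤ) := by
    intro k hk
    have hk' : ⌊(a + (k : ℕ) * Δ / N) / Δ⌋ ≠ ⌊(b + (k : ℕ) * Δ / N) / Δ⌋ := hk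
    have h1 : ⌊(a + (k : ℕ) * Δ / N) / Δ⌋ ≤ ⌊(b + (k : ℕ) * Δ / N) / Δ⌋ := by
      refine Int.floor_le_floor ?_
      gcongr
    have h2 := lt_of_le_of_ne h1 hk'
    rw [Int.floor_lt] at h2
    have h3 := Int.floor_le ((b + (k : ℕ) * Δ / N) / Δ)
    have h4 := mul_lt_mul_of_pos_left h2 hN'
    have h5 := mul_le_mul_of_nonneg_left h3 hN'.le
    rw [key] at h4 h5
    simp only [Finset.coe_Ioc, Set.mem_Ioc]
    constructor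
    · rw [Int.floor_lt]
      push_cast
      linarith
    · rw [Int.le_floor]
      push_cast
      linarith
  have hcard : {k : Fin N | ⌊(a + (k : ℕ) * Δ / N) / Δ⌋ ≠ ⌊(b + (k : ℕ) * Δ / N) / Δ⌋}.ncard ≤
      (Finset.Ioc ⌊(N : ℝ) * a / Δ⌋ ⌊(N : ℝ) * b / Δ⌋ : Finset ℤ).card := by
    rw [← Set.ncard_coe_finset]
    exact Set.ncard_le_ncard_of_injOn _ hmem hinj.injOn (Finset.finite_toSet _)
  rw [Int.card_Ioc] at hcard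
  have hfl : ⌊(N : ℝ) * a / Δ⌋ ≤ ⌊(N : ℝ) * b / Δ⌋ := by
    refine Int.floor_le_floor ?_
    gcongr
  have h1 : (((⌊(N : ℝ) * b / Δ⌋ - ⌊(N : ℝ) * a / Δ⌋).toNat : ℕ) : ℝ) =
      ⌊(N : ℝ) * b / Δ⌋ - ⌊(N : ℝ) * a / Δ⌋ := by
    have h2 : (((⌊(N : ℝ) * b / Δ⌋ - ⌊(N : ℝ) * a / Δ⌋).toNat : ℤ) : ℝ) =
        ((⌊(N : ℝ) * b / Δ⌋ - ⌊(N : ℝ) * a / Δ⌋ : ℤ) : ℝ) := by
      rw [Int.toNat_of_nonneg (by linarith)]
    push_cast at h2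
    exact_mod_cast h2
  have h2 := Int.floor_le ((N : ℝ) * b / Δ)
  have h3 := Int.lt_floor_add_one ((N : ℝ) * a / Δ)
  have h4 : (N : ℝ) * b / Δ - (N : ℝ) * a / Δ ≤ N * t / Δ := by
    rw [← sub_div, ← mul_sub]
    gcongr
    have := abs_le.1 hab
    linarith
  have h5 : ({k : Fin N | ⌊(a + (k : ℕ) * Δ / N) / Δ⌋ ≠
      ⌊(b + (k : ℕ) * Δ / N) / Δ⌋}.ncard : ℝ) ≤
      (((⌊(N : ℝ) * b / Δ⌋ - ⌊(N : ℝ) * a / Δ⌋).toNat : ℕ) : ℝ) := by exact_mod_cast hcard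
  linarith

end Vale.Agent.P235.Kpr
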