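import Vale.Agent.P235.R2.H907.PadK
import Vale.Agent.P235.R2.H718.Var

/-!
P235-M (helper907, second hand; text of helper718's `Var.lean`): one map at a variable scale, for
graphs without a `K_r` minor.
-/

set_option autoImplicit false

namespace Vale.Agent.P235.R2.H907.VarK

open Finset Vale.Agent.P235 Vale.Agent.P235.Kpr Vale.Agent.P235.Kr

/-- fixed scale -/
theorem fixedScale {V : Type} [Finite V] {G : SimpleGraph V} {ℓ : Sym2 V → ℝ}
    (hc : G.Connected)
    (hℓ : ∀ e ∈ G.edgeSet, 0 < ℓ e) {W : V → ℝ} (hW0 : ∀ v, 0 ≤ W v)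
    (hW : ∀ u v, G.Adj u v → |W u - W v| ≤ ℓ s(u, v)) {Ω : Type} [Fintype Ω] [Nonempty Ω]
    {c : Ω → V → V} {Dm t : ℝ} (ht : 0 ≤ t)
    (hc1 : ∀ ω u v, c ω u = c ω v → pathDist G ℓ u v ≤ Dm)
    (hc2 : ∀ u, 2 * ({ω | ∃ v, pathDist G ℓ u v ≤ t ∧ c ω u ≠ c ω v}.ncard : ℝ) ≤
      Fintype.card Ω) :
    ∃ N : V → V → ℝ, IsSq N ∧ (∀ u v, G.Adj u v → N u v ≤ 2 * ℓ s(u, v) ^ 2) ∧
      (∀ u v, W u = 0 → W v = 0 → N u v = 0) ∧
      ∀ x y, Dm < pathDist G ℓ x y → min (W x) t ^ 2 ≤ 2 * N x y := by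
  classical
  have := Fintype.ofFinite V
  have hd := pathDist_isMet hc hℓ
  obtain ⟨κ, hκ⟩ : ∃ κ : ℝ, κ = Fintype.card Ω := ⟨_, rfl⟩
  have hκ0 : 0 < κ := by rw [hκ]; exact_mod_cast Fintype.card_pos
  have hne : Nonempty V := hc.nonempty
  let q : Ω → V → V → ℝ := fun ω v w =>
    if c ω w = c ω v then W v else min (W v) (pathDist G ℓ v w)
  let p : Ω → V → ℝ := fun ω v => Finset.univ.inf' Finset.univ_nonempty (q ω v)
  have hq0 : ∀ ω v w, 0 ≤ q ω v w := by
    intro ω v w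
    show 0 ≤ (if c ω w = c ω v then W v else min (W v) (pathDist G ℓ v w))
    split_ifs
    · exact hW0 v
    · exact le_min (hW0 v) (hd.nonneg v w)
  have hp0 : ∀ ω v, 0 ≤ p ω v := fun ω v =>
    Finset.le_inf' _ _ fun w _ => hq0 ω v w
  have hpq : ∀ ω v w, p ω v ≤ q ω v w := fun ω v w => Finset.inf'_le _ (Finset.mem_univ w)
  have hpW : ∀ ω v, p ω v ≤ W v := fun ω v => (hpq ω v v).trans (le_of_eq (if_pos rfl))
  have hadj : ∀ u v, G.Adj u v → pathDist G ℓ u v ≤ ℓ s(u, v) := fun u v huv =>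
    pathDist_adj hℓ huv
  have hlip : ∀ ω u v, G.Adj u v → c ω u = c ω v → p ω u ≤ p ω v + ℓ s(u, v) := by
    intro ω u v huv hcc
    have h1 := hW u v huv
    rw [abs_le] at h1
    have h0 : p ω u - ℓ s(u, v) ≤ p ω v := by
      refine Finset.le_inf' _ _ fun w _ => ?_
      have h2 := hpq ω u w
      have h3 : q ω u w ≤ q ω v w + ℓ s(u, v) := by
        show (if c ω w = c ω u then W u else min (W u) (pathDist G ℓ u w)) ≤
          (if c ω w = c ω v then W v else min (W v) (pathDist G ℓ v w)) + ℓ s(u, v)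
        by_cases hw : c ω w = c ω u
        · rw [if_pos hw, if_pos (hw.trans hcc)]
          linarith
        · rw [if_neg hw, if_neg (fun h => hw (h.trans hcc.symm))]
          have h4 := hd.tri u v w
          have h5 := hadj u v huv
          rcases min_cases (W v) (pathDist G ℓ v w) with ⟨h6, _⟩ | ⟨h6, _⟩
          · rw [h6]
            exact (min_le_left _ _).trans (by linarith)
          · rw [h6]
            exact (min_le_right _ _).trans (by linarith)
      linarith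
    linarith
  have hcross : ∀ ω u v, G.Adj u v → c ω u ≠ c ω v → p ω u ≤ ℓ s(u, v) := by
    intro ω u v huv hcc
    refine (hpq ω u v).trans ?_
    show (if c ω v = c ω u then W u else min (W u) (pathDist G ℓ u v)) ≤ _
    rw [if_neg (Ne.symm hcc)]
    exact (min_le_right _ _).trans (hadj u v huv)
  have hpad : ∀ ω x, ¬ (∃ v, pathDist G ℓ x v ≤ t ∧ c ω x ≠ c ω v) →
      min (W x) (t) ≤ p ω x := by
    intro ω x hx
    refine Finset.le_inf' _ _ fun w _ => ?_
    show _ ≤ (if c ω w = c ω x then W x else min (W x) (pathDist G ℓ x w))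
    by_cases hw : c ω w = c ω x
    · rw [if_pos hw]
      exact min_le_left _ _
    · rw [if_neg hw]
      have h1 : t ≤ pathDist G ℓ x w := by
        by_contra h
        push Not at h
        exact hx ⟨w, h.le, Ne.symm hw⟩
      exact min_le_min le_rfl h1
  let g : Ω → V → V → ℝ := fun ω z a => if c ω a = z then p ω a else 0
  have hsame : ∀ ω a b, c ω a = c ω b →
      ∑ z, (g ω z a - g ω z b) ^ 2 = (p ω a - p ω b) ^ 2 := by
    intro ω a b hab
    rw [Finset.sum_eq_single (c ω a)]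
    · show ((if c ω a = c ω a then p ω a else 0) - (if c ω b = c ω a then p ω b else 0)) ^ 2 = _
      rw [if_pos rfl, if_pos hab.symm]
    · intro z _ hz
      show ((if c ω a = z then p ω a else 0) - (if c ω b = z then p ω b else 0)) ^ 2 = _
      rw [if_neg (Ne.symm hz), if_neg (fun h => hz (h.symm.trans hab.symm))]
      ring
    · intro h
      exact absurd (Finset.mem_univ _) h
  have hdiff : ∀ ω a b, c ω a ≠ c ω b →
      ∑ z, (g ω z a - g ω z b) ^ 2 = p ω a ^ 2 + p ω b ^ 2 := by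
    intro ω a b hab
    have h1 : ∀ z, (g ω z a - g ω z b) ^ 2 =
        (if c ω a = z then p ω a ^ 2 else 0) + (if c ω b = z then p ω b ^ 2 else 0) := by
      intro z
      show ((if c ω a = z then p ω a else 0) - (if c ω b = z then p ω b else 0)) ^ 2 = _
      by_cases h2 : c ω a = z
      · have h3 : c ω b ≠ z := fun h => hab (h2.trans h.symm)
        simp only [if_pos h2, if_neg h3]
        ring
      · simp only [if_neg h2]
        split_ifs <;> ring
    rw [Finset.sum_congr rfl fun z _ => h1 z, Finset.sum_add_distrib,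
      Finset.sum_ite_eq, Finset.sum_ite_eq, if_pos (Finset.mem_univ _), if_pos (Finset.mem_univ _)]
  have hN : ∀ a b : V, ∑ i : Ω × V, (1 / κ : ℝ) * (g i.1 i.2 a - g i.1 i.2 b) ^ 2 =
      1 / κ * ∑ ω : Ω, ∑ z, (g ω z a - g ω z b) ^ 2 := by
    intro a b
    rw [← Finset.mul_sum, Fintype.sum_prod_type]
  refine ⟨fun a b => ∑ i : Ω × V, (1 / κ : ℝ) * (g i.1 i.2 a - g i.1 i.2 b) ^ 2,
    ⟨Ω × V, inferInstance, fun _ => 1 / κ, fun i => g i.1 i.2, fun _ => by positivity,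
      fun _ _ => rfl⟩, ?_, ?_, ?_⟩
  · intro u v huv
    have hl := hℓ s(u, v) huv
    show ∑ i : Ω × V, (1 / κ : ℝ) * (g i.1 i.2 u - g i.1 i.2 v) ^ 2 ≤ _
    rw [hN]
    have h1 : ∀ ω : Ω, ∑ z, (g ω z u - g ω z v) ^ 2 ≤ 2 * ℓ s(u, v) ^ 2 := by
      intro ω
      by_cases h : c ω u = c ω v
      · rw [hsame ω u v h]
        have a1 := hlip ω u v huv h
        have a2 := hlip ω v u huv.symm h.symm
        rw [Sym2.eq_swap] at a2
        have a3 : (p ω u - p ω v) ^ 2 ≤ ℓ s(u, v) ^ 2 := by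
          apply sq_le_sq'
          · linarith
          · linarith
        have a4 := sq_nonneg (ℓ s(u, v))
        linarith
      · rw [hdiff ω u v h]
        have a1 := hcross ω u v huv h
        have a2 := hcross ω v u huv.symm (Ne.symm h)
        rw [Sym2.eq_swap] at a2
        have a3 := pow_le_pow_left₀ (hp0 ω u) a1 2
        have a4 := pow_le_pow_left₀ (hp0 ω v) a2 2
        linarith
    have h2 : ∑ ω : Ω, ∑ z, (g ω z u - g ω z v) ^ 2 ≤ κ * (2 * ℓ s(u, v) ^ 2) := by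
      refine (Finset.sum_le_sum fun ω _ => h1 ω).trans (le_of_eq ?_)
      rw [Finset.sum_const, Finset.card_univ, nsmul_eq_mul, hκ]
    rw [one_div, inv_mul_le_iff₀ hκ0]
    exact h2
  · intro u v hu hv
    show ∑ i : Ω × V, (1 / κ : ℝ) * (g i.1 i.2 u - g i.1 i.2 v) ^ 2 = 0
    rw [hN]
    have h1 : ∀ ω : Ω, ∑ z, (g ω z u - g ω z v) ^ 2 = 0 := by
      intro ω
      have a1 : p ω u = 0 := le_antisymm ((hpW ω u).trans (le_of_eq hu)) (hp0 ω u)
      have a2 : p ω v = 0 := le_antisymm ((hpW ω v).trans (le_of_eq hv)) (hp0 ω v)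
      by_cases h : c ω u = c ω v
      · rw [hsame ω u v h, a1, a2]; ring
      · rw [hdiff ω u v h, a1, a2]; ring
    rw [Finset.sum_congr rfl fun ω _ => h1 ω]
    simp
  · intro x y hxy
    show _ ≤ 2 * ∑ i : Ω × V, (1 / κ : ℝ) * (g i.1 i.2 x - g i.1 i.2 y) ^ 2
    rw [hN]
    set m := min (W x) (t) with hm
    have hm0 : 0 ≤ m := le_min (hW0 x) (by linarith)
    have hcut : ∀ ω, c ω x ≠ c ω y := fun ω h => absurd (hc1 ω x y h) (not_le.2 hxy)
    have hbad := hc2 x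
    rw [← hκ] at hbad
    let B : Finset Ω := Finset.univ.filter fun ω => ∃ v, pathDist G ℓ x v ≤ t ∧ c ω x ≠ c ω v
    have hBcard : 2 * (B.card : ℝ) ≤ κ := by
      have e : ({ω | ∃ v, pathDist G ℓ x v ≤ t ∧ c ω x ≠ c ω v} : Set Ω) = (B : Set Ω) := by
        ext ω
        simp [B]
      rw [e, Set.ncard_coe_finset] at hbad
      exact hbad
    have hgood : κ / 2 ≤ ((Finset.univ \ B).card : ℝ) := by
      have h1 : (Finset.univ \ B).card + B.card = Fintype.card Ω := by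
        rw [← Finset.card_univ]
        exact Finset.card_sdiff_add_card_eq_card (Finset.subset_univ B)
      have h2 : ((Finset.univ \ B).card : ℝ) + B.card = κ := by rw [hκ]; exact_mod_cast h1
      linarith
    have h1 : ∑ ω ∈ Finset.univ \ B, m ^ 2 ≤ ∑ ω : Ω, ∑ z, (g ω z x - g ω z y) ^ 2 := by
      refine (Finset.sum_le_sum fun ω hω => ?_).trans
        (Finset.sum_le_sum_of_subset_of_nonneg (Finset.subset_univ (Finset.univ \ B))
          fun ω _ _ => Finset.sum_nonneg fun z _ => sq_nonneg _)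
      rw [hdiff ω x y (hcut ω)]
      have hω' : ¬ (∃ v, pathDist G ℓ x v ≤ t ∧ c ω x ≠ c ω v) := by
        intro h
        have := (Finset.mem_sdiff.1 hω).2
        exact this (Finset.mem_filter.2 ⟨Finset.mem_univ _, h⟩)
      have h2 := pow_le_pow_left₀ hm0 (hpad ω x hω') 2
      have h3 := sq_nonneg (p ω y)
      linarith
    rw [Finset.sum_const, nsmul_eq_mul] at h1
    have h3 := mul_le_mul_of_nonneg_right hgood (sq_nonneg m)
    have h4 : 1 / κ * (κ / 2 * m ^ 2) ≤ 1 / κ * ∑ ω : Ω, ∑ z, (g ω z x - g ω z y) ^ 2 :=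
      mul_le_mul_of_nonneg_left (h3.trans h1) (by positivity)
    have h5 : 1 / κ * (κ / 2 * m ^ 2) = m ^ 2 / 2 := by field_simp
    linarith

/-- fixed scale, graphs without a `K_r` minor -/
theorem fixed (hP : RowPadK) {V : Type} [Finite V] {G : SimpleGraph V} {ℓ : Sym2 V → ℝ} {r : ℕ}
    (hc : G.Connected) (hM : NoK r G) (hℓ : ∀ e ∈ G.edgeSet, 0 < ℓ e) {W : V → ℝ}
    (hW0 : ∀ v, 0 ≤ W v) (hW : ∀ u v, G.Adj u v → |W u - W v| ≤ ℓ s(u, v)) {Δ : ℝ}
    (hΔ : 0 < Δ) :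
    ∃ N : V → V → ℝ, IsSq N ∧ (∀ u v, G.Adj u v → N u v ≤ 2 * ℓ s(u, v) ^ 2) ∧
      (∀ u v, W u = 0 → W v = 0 → N u v = 0) ∧
      ∀ x y, 8 * ((r : ℝ) + 2) ^ 2 * Δ < pathDist G ℓ x y →
        min (W x) (Δ / (8 * ((r : ℝ) + 2))) ^ 2 ≤ 2 * N x y := by
  have hr0 : (0 : ℝ) ≤ r := by positivity
  have hN0 : 0 < 4 * (r + 2) := by omega
  have : Nonempty (Fin (4 * (r + 2))) := ⟨⟨0, hN0⟩⟩
  obtain ⟨c, hc1, hc2⟩ := hP V G ℓ r hc hM hℓ Δ (4 * (r + 2)) hΔ hN0
  refine fixedScale hc hℓ hW0 hW (t := Δ / (8 * ((r : ℝ) + 2))) (by positivity) hc1 fun u => ?_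
  have h1 := hc2 u (Δ / (8 * ((r : ℝ) + 2))) (by positivity)
  have h2 : (Fintype.card (Fin (r + 2) → Fin (4 * (r + 2))) : ℝ) =
      (((4 * (r + 2) : ℕ)) : ℝ) ^ (r + 2) := by
    rw [Fintype.card_pi]
    simp
  rw [h2]
  have h3 : ((r : ℝ) + 2) * (((4 * (r + 2) : ℕ)) : ℝ) ^ (r + 2) *
      (2 * (Δ / (8 * ((r : ℝ) + 2))) / Δ + 1 / (((4 * (r + 2) : ℕ)) : ℝ)) =
      (((4 * (r + 2) : ℕ)) : ℝ) ^ (r + 2) / 2 := by
    have h4 : 2 * (Δ / (8 * ((r : ℝ) + 2))) / Δ + 1 / (((4 * (r + 2) : ℕ)) : ℝ) =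
        1 / (2 * ((r : ℝ) + 2)) := by
      push_cast
      field_simp
      norm_num
    rw [h4]
    field_simp
  linarith

/-- (Mk) one map at the variable scale `τ` -/
def RowVarK : Prop :=
  ∀ (V : Type) [Finite V] (G : SimpleGraph V) (ℓ : Sym2 V → ℝ) (r : ℕ), G.Connected →
    NoK r G → (∀ e ∈ G.edgeSet, 0 < ℓ e) →
    ∀ τ : V → ℝ, (∀ v, 0 ≤ τ v) → (∀ u v, G.Adj u v → |τ u - τ v| ≤ ℓ s(u, v)) →
    ∃ N : V → V → ℝ, IsSq N ∧ (∀ u v, G.Adj u v → N u v ≤ 12 * ℓ s(u, v) ^ 2) ∧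
      ∀ x y, 0 < τ x → τ x ≤ 2 * pathDist G ℓ x y →
        τ x ^ 2 ≤ 10 ^ 6 * ((r : ℝ) + 2) ^ 6 * N x y

theorem rowVarK (hP : RowPadK) : RowVarK := by
  intro V _ G ℓ r hc hpl hℓ τ hτ0 hτ
  classical
  obtain ⟨q, hq⟩ : ∃ q : ℝ, q = (r : ℝ) + 2 := ⟨_, rfl⟩
  have hr0 : (0 : ℝ) ≤ r := by positivity
  have hq2 : 2 ≤ q := by rw [hq]; linarith
  have := Fintype.ofFinite V
  have hd := pathDist_isMet hc hℓ
  let W : ℤ → V → ℝ := fun m v => max 0 (min (τ v - (2 : ℝ) ^ (m - 1)) ((2 : ℝ) ^ (m + 2) - τ v))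
  have hW0 : ∀ m v, 0 ≤ W m v := fun m v => le_max_left _ _
  have hW1 : ∀ m u v, G.Adj u v → W m u ≤ W m v + ℓ s(u, v) := by
    intro m u v huv
    have h := hτ u v huv
    have hl := hℓ s(u, v) huv
    rw [abs_le] at h
    refine max_le (by linarith [hW0 m v]) ?_
    have h1 : min (τ v - (2 : ℝ) ^ (m - 1)) ((2 : ℝ) ^ (m + 2) - τ v) ≤ W m v := le_max_right _ _
    rcases min_cases (τ v - (2 : ℝ) ^ (m - 1)) ((2 : ℝ) ^ (m + 2) - τ v) with ⟨h6, _⟩ | ⟨h6, _⟩
    · rw [h6] at h1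
      exact (min_le_left _ _).trans (by linarith)
    · rw [h6] at h1
      exact (min_le_right _ _).trans (by linarith)
  have hWl : ∀ m u v, G.Adj u v → |W m u - W m v| ≤ ℓ s(u, v) := by
    intro m u v huv
    have h1 := hW1 m u v huv
    have h2 := hW1 m v u huv.symm
    rw [Sym2.eq_swap] at h2
    rw [abs_le]
    constructor <;> linarith
  have hF := fun m : ℤ => fixed hP hc hpl hℓ (hW0 m) (hWl m) (Δ := (2 : ℝ) ^ m / (20 * q ^ 2))
    (by positivity)
  choose N hN1 hN2 hN3 hN4 using hF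
  let M : Finset ℤ := Finset.univ.image fun v => Int.log 2 (τ v)
  refine ⟨fun a b => ∑ m ∈ M, N m a b, IsSq.sum M (fun m => N m) fun m _ => hN1 m, ?_, ?_⟩
  · intro u v huv
    show ∑ m ∈ M, N m u v ≤ _
    let S : V → Finset ℤ := fun v =>
      {Int.log 2 (τ v) - 1, Int.log 2 (τ v), Int.log 2 (τ v) + 1}
    have hS : ∀ m v, m ∉ S v → W m v = 0 := by
      intro m v hm
      by_contra hne
      have hpos : 0 < W m v := lt_of_le_of_ne (hW0 m v) (Ne.symm hne)
      have h1 : 0 < min (τ v - (2 : ℝ) ^ (m - 1)) ((2 : ℝ) ^ (m + 2) - τ v) := by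
        rcases lt_max_iff.1 hpos with h | h
        · exact absurd h (lt_irrefl _)
        · exact h
      obtain ⟨h2, h3⟩ := lt_min_iff.1 h1
      have hp : (0 : ℝ) < (2 : ℝ) ^ (m - 1) := by positivity
      have hτp : 0 < τ v := by linarith
      have h4 : (2 : ℝ) ^ (Int.log 2 (τ v)) ≤ τ v :=
        Int.zpow_log_le_self (by norm_num) hτp
      have h5 : τ v < (2 : ℝ) ^ (Int.log 2 (τ v) + 1) :=
        Int.lt_zpow_succ_log_self (by norm_num) (τ v)
      have h6 : m - 1 < Int.log 2 (τ v) + 1 := by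
        have : (2 : ℝ) ^ (m - 1) < (2 : ℝ) ^ (Int.log 2 (τ v) + 1) := by linarith
        exact (zpow_lt_zpow_iff_right₀ (by norm_num)).1 this
      have h7 : Int.log 2 (τ v) < m + 2 := by
        have : (2 : ℝ) ^ (Int.log 2 (τ v)) < (2 : ℝ) ^ (m + 2) := by linarith
        exact (zpow_lt_zpow_iff_right₀ (by norm_num)).1 this
      apply hm
      simp only [S, Finset.mem_insert, Finset.mem_singleton]
      omega
    have h1 : ∀ m ∈ M, N m u v ≤ if m ∈ S u ∪ S v then 2 * ℓ s(u, v) ^ 2 else 0 := by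
      intro m _
      split_ifs with h
      · exact hN2 m u v huv
      · rw [Finset.mem_union, not_or] at h
        exact (hN3 m u v (hS m u h.1) (hS m v h.2)).le
    refine (Finset.sum_le_sum h1).trans ?_
    rw [Finset.sum_ite_mem, Finset.sum_const, nsmul_eq_mul]
    have h2 : (M ∩ (S u ∪ S v)).card ≤ 6 := by
      refine (Finset.card_le_card Finset.inter_subset_right).trans
        ((Finset.card_union_le _ _).trans ?_)
      have a1 : (S u).card ≤ 3 := Finset.card_le_three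
      have a2 : (S v).card ≤ 3 := Finset.card_le_three
      omega
    have h3 : ((M ∩ (S u ∪ S v)).card : ℝ) ≤ 6 := by exact_mod_cast h2
    have h4 : 0 ≤ 2 * ℓ s(u, v) ^ 2 := by positivity
    nlinarith [mul_le_mul_of_nonneg_right h3 h4]
  · intro x y hx hxy
    rw [← hq]
    show _ ≤ 10 ^ 6 * q ^ 6 * ∑ m ∈ M, N m x y
    have h1 : (2 : ℝ) ^ (Int.log 2 (τ x)) ≤ τ x := Int.zpow_log_le_self (by norm_num) hx
    have h2 : τ x < (2 : ℝ) ^ (Int.log 2 (τ x) + 1) :=
      Int.lt_zpow_succ_log_self (by norm_num) (τ x)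
    set L := Int.log 2 (τ x) with hL
    have hp : (0 : ℝ) < (2 : ℝ) ^ L := by positivity
    have e1 : (2 : ℝ) ^ (L + 1) = 2 * (2 : ℝ) ^ L := by
      rw [zpow_add₀ (by norm_num)]; ring
    have e2 : (2 : ℝ) ^ (L + 2) = 4 * (2 : ℝ) ^ L := by
      rw [zpow_add₀ (by norm_num)]; norm_num; ring
    have e3 : (2 : ℝ) ^ (L - 1) = (2 : ℝ) ^ L / 2 := by
      rw [zpow_sub₀ (by norm_num)]; norm_num
    rw [e1] at h2
    rw [← hq] at hN4
    have h3 : 8 * q ^ 2 * ((2 : ℝ) ^ L / (20 * q ^ 2)) < pathDist G ℓ x y := by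
      have : 8 * q ^ 2 * ((2 : ℝ) ^ L / (20 * q ^ 2)) = 2 / 5 * (2 : ℝ) ^ L := by
        field_simp
        norm_num
      rw [this]
      linarith
    have h4 := hN4 L x y h3
    have hq3 : 1 ≤ q ^ 3 := one_le_pow₀ (by linarith)
    have h5 : τ x / (320 * q ^ 3) ≤ min (W L x) ((2 : ℝ) ^ L / (20 * q ^ 2) / (8 * q)) := by
      have h51 : τ x / (320 * q ^ 3) ≤ τ x / 320 := by
        gcongr
        linarith
      refine le_min ?_ ?_
      · refine le_trans (le_min ?_ ?_) (le_max_right _ _)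
        · rw [e3]; linarith
        · rw [e2]; linarith
      · have h52 : (2 : ℝ) ^ L / (20 * q ^ 2) / (8 * q) = 2 * (2 : ℝ) ^ L / (320 * q ^ 3) := by
          field_simp
          norm_num
        rw [h52]
        gcongr
    have h6 : (τ x / (320 * q ^ 3)) ^ 2 ≤ 2 * N L x y :=
      (pow_le_pow_left₀ (by positivity) h5 2).trans h4
    have h7 : N L x y ≤ ∑ m ∈ M, N m x y :=
      Finset.single_le_sum (f := fun m => N m x y) (fun m _ => (hN1 m).nonneg x y)
        (Finset.mem_image.2 ⟨x, Finset.mem_univ _, rfl⟩)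
    have h8 := (hN1 L).nonneg x y
    have e4 : τ x ^ 2 = (τ x / (320 * q ^ 3)) ^ 2 * (102400 * q ^ 6) := by
      field_simp
      norm_num
    have h9 : (τ x / (320 * q ^ 3)) ^ 2 * (102400 * q ^ 6) ≤ 2 * N L x y * (102400 * q ^ 6) :=
      mul_le_mul_of_nonneg_right h6 (by positivity)
    have h10 : 2 * N L x y * (102400 * q ^ 6) ≤ 10 ^ 6 * q ^ 6 * N L x y := by
      have : 0 ≤ q ^ 6 * N L x y := by positivity
      nlinarith
    have h11 : 10 ^ 6 * q ^ 6 * N L x y ≤ 10 ^ 6 * q ^ 6 * ∑ m ∈ M, N m x y :=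
      mul_le_mul_of_nonneg_left h7 (by positivity)
    linarith

end Vale.Agent.P235.R2.H907.VarK
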