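import Vale.Agent.P235.H105.Hop
import Vale.Agent.P235.R2.H341.XDefs

/-!
# Connected subgraphs of plane maps (helper907)
-/

set_option autoImplicit false
set_option linter.all false

namespace Vale.Agent.P235.R2.H907

open SimpleGraph Finset Vale.Agent.P235 Vale.Agent.P235.H341W

attribute [local instance] finite_dart

section emb

variable {V : Type} {G : SimpleGraph V} {S : Set V} {H : SimpleGraph S}
  (hH : ∀ a b : S, H.Adj a b → G.Adj a.1 b.1)

/-- the dart of `G` under a dart of the subgraph -/
def upS (a : H.Dart) : G.Dart := ⟨(a.fst.1, a.snd.1), hH _ _ a.adj⟩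

theorem upS_fst (a : H.Dart) : (upS hH a).fst = a.fst.1 := rfl

theorem upS_symm (a : H.Dart) : upS hH a.symm = (upS hH a).symm := rfl

theorem upS_inj : Function.Injective (upS hH) := by
  intro a b h
  have h1 : a.fst.1 = b.fst.1 := congrArg (fun d : G.Dart => d.fst) h
  have h2 : a.snd.1 = b.snd.1 := congrArg (fun d : G.Dart => d.snd) h
  exact Dart.ext _ _ (Prod.ext (Subtype.ext h1) (Subtype.ext h2))

open Classical in
/-- extension by zero -/
noncomputable def extS (z : H.Dart → ZMod 2) (d : G.Dart) : ZMod 2 :=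
  if h : ∃ a, upS hH a = d then z h.choose else 0

theorem extS_up (z : H.Dart → ZMod 2) (a : H.Dart) : extS hH z (upS hH a) = z a := by
  have h : ∃ b, upS hH b = upS hH a := ⟨a, rfl⟩
  rw [extS, dif_pos h]
  exact congrArg z (upS_inj hH h.choose_spec)

theorem extS_out (z : H.Dart → ZMod 2) {d : G.Dart} (h : d ∉ Set.range (upS hH)) :
    extS hH z d = 0 := dif_neg h

/-- along the rotation the label does not change before the next kept dart -/
theorem ret_const [Finite V] {σ : Equiv.Perm G.Dart} {K : Type} {u : G.Dart → K}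
    (hu : ∀ d, u (faceNext σ d) = u d)
    (hout : ∀ d : G.Dart, d ∉ Set.range (upS hH) → u d.symm = u d) (a : H.Dart) :
    u (upS hH (retPerm σ (upS_inj hH) a)) = u (upS hH a).symm := by
  have h1 : ∀ d : G.Dart, u (σ d) = u d.symm := fun d => by
    have h := hu d.symm
    rwa [faceNext_apply, Dart.symm_symm] at h
  have key : ∀ j : ℕ, j < retTime σ (upS hH) a →
      u ((σ ^ (j + 1)) (upS hH a)) = u (upS hH a).symm := by
    intro j
    induction j with
    | zero =>
      intro _
      rw [zero_add, pow_one, h1]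
    | succ j ih =>
      intro hj
      rw [pow_succ', Equiv.Perm.mul_apply, h1, hout, ih (by omega)]
      intro hr
      have := retTime_min σ (upS hH) a (Nat.succ_pos j) hr
      omega
  have h2 := retTime_pos σ (upS hH) a
  obtain ⟨m, hm⟩ := Nat.exists_eq_succ_of_ne_zero h2.ne'
  have h3 := key m (by omega)
  rw [retPerm_apply σ (upS_inj hH), hm]
  exact h3

/-- a cycle of the subgraph is the boundary of a face function of `G` -/
theorem exists_face_fun [Fintype V] [DecidableEq V] [Fintype G.Dart] [DecidableEq G.Dart]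
    [Fintype H.Dart] {σ : Equiv.Perm G.Dart} (hG : G.Connected) (hσ : PlaneMap G σ)
    (z : H.Dart → ZMod 2) (hz : ∀ a : H.Dart, z a.symm = z a)
    (hv : ∀ v : S, ∑ a : H.Dart, (if a.fst = v then z a else 0) = 0) :
    ∃ u : G.Dart → ZMod 2, (∀ d, u (faceNext σ d) = u d) ∧
      (∀ d : G.Dart, d ∉ Set.range (upS hH) → u d.symm = u d) ∧
      ∀ a, z a = u (upS hH a) + u (upS hH a).symm := by
  classical
  obtain ⟨u, hu, hzu⟩ := plane_cycle' hG hσ (extS hH z) (fun d => by
    by_cases h : d ∈ Set.range (upS hH)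
    · obtain ⟨a, rfl⟩ := h
      rw [← upS_symm, extS_up, extS_up, hz]
    · have h2 : d.symm ∉ Set.range (upS hH) := by
        rintro ⟨a, ha⟩
        refine h ⟨a.symm, ?_⟩
        rw [upS_symm, ha, Dart.symm_symm]
      rw [extS_out hH _ h, extS_out hH _ h2]) (fun v => by
    rw [Finset.sum_filter]
    have h2 : ∑ a : H.Dart, (if a.fst.1 = v then z a else 0) =
        ∑ d : G.Dart, (if d.fst = v then extS hH z d else 0) := by
      refine Finset.sum_of_injOn (upS hH) (upS_inj hH).injOn
        (fun _ _ => Finset.mem_coe.2 (Finset.mem_univ _)) ?_ ?_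
      · intro d _ hd
        rw [Finset.coe_univ, Set.image_univ] at hd
        rw [extS_out hH z hd, ite_self]
      · intro a _
        rw [extS_up, upS_fst]
    rw [← h2]
    by_cases hvS : v ∈ S
    · refine Eq.trans ?_ (hv ⟨v, hvS⟩)
      refine Finset.sum_congr rfl fun a _ => ?_
      have h3 : (a.fst.1 = v) = (a.fst = ⟨v, hvS⟩) :=
        propext ⟨fun h => Subtype.ext h, fun h => congrArg Subtype.val h⟩
      simp only [h3]
    · refine Finset.sum_eq_zero fun a _ => if_neg ?_
      rintro rfl
      exact hvS a.fst.2)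
  refine ⟨u, hu, fun d hd => ?_, fun a => ?_⟩
  · have h2 := hzu d
    rw [extS_out hH _ hd] at h2
    exact (CharTwo.add_eq_zero.1 h2.symm).symm
  · rw [← hzu, extS_up]

/-- labels at the same vertex agree up to the next kept dart -/
theorem next_kept [Finite V] {σ : Equiv.Perm G.Dart} (hfst : ∀ d, (σ d).fst = d.fst)
    (hcyc : ∀ d d' : G.Dart, d.fst = d'.fst → σ.SameCycle d d') (d : G.Dart) (b : H.Dart)
    (hb : b.fst.1 = d.fst) :
    ∃ a : H.Dart, (upS hH a).fst = d.fst ∧ ∀ u : G.Dart → ZMod 2,
      (∀ d, u (faceNext σ d) = u d) →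
      (∀ d : G.Dart, d ∉ Set.range (upS hH) → u d.symm = u d) → u (upS hH a) = u d := by
  obtain ⟨n, hn⟩ : ∃ n : ℕ, (σ ^ n) d = upS hH b := by
    obtain ⟨n, _, hn⟩ := (hcyc d (upS hH b) hb.symm).exists_pow_eq'
    exact ⟨n, hn⟩
  clear hb
  induction n using Nat.strong_induction_on generalizing d with
  | _ n ih =>
    by_cases hd : d ∈ Set.range (upS hH)
    · obtain ⟨a, rfl⟩ := hd
      exact ⟨a, rfl, fun _ _ _ => rfl⟩
    · rcases n with _ | n
      · rw [pow_zero] at hn
        exact absurd ⟨b, hn.symm⟩ hd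
      · have h1 : (σ ^ n) (σ d) = upS hH b := by
          rw [← Equiv.Perm.mul_apply, ← pow_succ]
          exact hn
        obtain ⟨a, ha1, ha2⟩ := ih n (Nat.lt_succ_self n) (σ d) h1
        refine ⟨a, ha1.trans (hfst d), fun u hu1 hu2 => ?_⟩
        rw [ha2 u hu1 hu2, ← hu2 d hd, ← hu1 d.symm, faceNext_apply, Dart.symm_symm]

end emb

/-- **Connected subgraphs of plane maps.** -/
theorem rowSub : RowSub := by
  intro V _ G σ S H hH hG hσ hHc hne
  classical
  have : Fintype V := Fintype.ofFinite V
  have : Fintype S := Fintype.ofFinite _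
  have : Fintype G.Dart := Fintype.ofFinite _
  have : Fintype H.Dart := Fintype.ofFinite _
  have : Nonempty S := hHc.nonempty
  set σ' : Equiv.Perm H.Dart := retPerm σ (upS_inj hH) with hσ'
  have hfst' : ∀ a, (σ' a).fst = a.fst := by
    intro a
    refine Subtype.ext ?_
    rw [← upS_fst hH, hσ', retPerm_apply σ (upS_inj hH), pow_fst hσ.fst, upS_fst]
  have hcyc' : ∀ a b : H.Dart, a.fst = b.fst → σ'.SameCycle a b := fun a b hab =>
    retPerm_sameCycle σ (upS_inj hH) (hσ.cyc _ _ (congrArg Subtype.val hab))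
  have hinv : ∀ u : G.Dart → ZMod 2, (∀ d, u (faceNext σ d) = u d) →
      (∀ d : G.Dart, d ∉ Set.range (upS hH) → u d.symm = u d) →
      ∀ a, u (upS hH (faceNext σ' a)) = u (upS hH a) := by
    intro u hu1 hu2 a
    show u (upS hH (σ' a.symm)) = _
    rw [hσ', ret_const hH hu1 hu2, upS_symm, Dart.symm_symm]
  have hpl : PlaneMap H σ' := by
    refine SurfMap.plane hHc ⟨hfst', hcyc', ?_⟩
    rw [add_zero]
    refine euler_of_cycles hne fun z hz hv => ?_
    obtain ⟨u, hu1, hu2, hu3⟩ := exists_face_fun hH hG hσ z hz (fun v => by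
      rw [← Finset.sum_filter]
      exact hv v)
    refine ⟨fun a => u (upS hH a), hinv u hu1 hu2, fun a => ?_⟩
    show z a = u (upS hH a) + u (upS hH a.symm)
    rw [upS_symm]
    exact hu3 a
  -- kept darts with the same labels are on the same face
  have key : ∀ a b : H.Dart, (∀ u : G.Dart → ZMod 2, (∀ d, u (faceNext σ d) = u d) →
      (∀ d : G.Dart, d ∉ Set.range (upS hH) → u d.symm = u d) → u (upS hH a) = u (upS hH b)) →
      (faceNext σ').SameCycle a b := by
    intro a b hab
    let g : H.Dart → ZMod 2 := fun x => if (faceNext σ').SameCycle a x then 1 else 0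
    have hg : ∀ x, g (faceNext σ' x) = g x := by
      intro x
      show (if (faceNext σ').SameCycle a (faceNext σ' x) then (1 : ZMod 2) else 0) = _
      simp only [Equiv.Perm.sameCycle_apply_right]
      rfl
    have hgs : ∀ x : H.Dart, g x.symm = g (σ' x) := by
      intro x
      rw [← hg x.symm, faceNext_apply, Dart.symm_symm]
    obtain ⟨u, hu1, hu2, hu3⟩ := exists_face_fun hH hG hσ (fun x => g x + g x.symm)
      (fun x => by
        show g x.symm + g x.symm.symm = g x + g x.symm
        rw [Dart.symm_symm, add_comm]) (fun v => by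
        have e1 : ∑ x : H.Dart, (if x.fst = v then g x.symm else 0) =
            ∑ x : H.Dart, (if x.fst = v then g x else 0) := by
          rw [← Equiv.sum_comp σ' fun x => if x.fst = v then g x else 0]
          refine Finset.sum_congr rfl fun x _ => ?_
          rw [hfst', hgs]
        have e2 : ∑ x : H.Dart, (if x.fst = v then g x + g x.symm else 0) =
            ∑ x : H.Dart, (if x.fst = v then g x else 0) +
            ∑ x : H.Dart, (if x.fst = v then g x.symm else 0) := by
          rw [← Finset.sum_add_distrib]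
          refine Finset.sum_congr rfl fun x _ => ?_
          split_ifs
          · rfl
          · simp
        rw [e2, e1, CharTwo.add_self_eq_zero])
    have hc := const_of_inv hHc hcyc' (fun x => g x + u (upS hH x))
      (fun x => by
        show g (faceNext σ' x) + u (upS hH (faceNext σ' x)) = g x + u (upS hH x)
        rw [hg, hinv u hu1 hu2])
      (fun x => by
        show g x.symm + u (upS hH x.symm) = g x + u (upS hH x)
        have h1 : g x + g x.symm = u (upS hH x) + u (upS hH x).symm := hu3 x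
        rw [upS_symm]
        have h2 : g x.symm = g x + (u (upS hH x) + u (upS hH x).symm) := by
          rw [← h1, ← add_assoc, CharTwo.add_self_eq_zero, zero_add]
        rw [h2, add_assoc, add_assoc, CharTwo.add_self_eq_zero, add_zero]) a b
    have hga : g a = 1 := if_pos (Equiv.Perm.SameCycle.refl _ _)
    have hc' : g a + u (upS hH a) = g b + u (upS hH b) := hc
    rw [hab u hu1 hu2, hga] at hc'
    have hgb : g b = 1 := (add_right_cancel hc').symm
    by_contra hn
    have h0 : g b = 0 := if_neg hn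
    rw [h0] at hgb
    exact zero_ne_one hgb
  have hlab : ∀ (u : G.Dart → ZMod 2), (∀ d, u (faceNext σ d) = u d) → ∀ d e : G.Dart,
      (faceNext σ).SameCycle d e → u d = u e := by
    intro u hu d e hde
    obtain ⟨n, hn⟩ := exists_pow_face hde
    rw [← hn]
    clear hn
    induction n with
    | zero => rfl
    | succ n ih => rw [pow_succ', Equiv.Perm.mul_apply, hu, ← ih]
  refine ⟨σ', hpl, fun d₀ => ?_⟩
  by_cases hex : ∃ a : H.Dart, ∀ u : G.Dart → ZMod 2, (∀ d, u (faceNext σ d) = u d) →
      (∀ d : G.Dart, d ∉ Set.range (upS hH) → u d.symm = u d) → u (upS hH a) = u d₀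
  · obtain ⟨d₁, hd₁⟩ := hex
    refine ⟨d₁, ?_, ?_⟩
    · rintro v ⟨d, hd, hdv⟩
      -- a dart of the subgraph at `v`
      obtain ⟨b, hb⟩ : ∃ b : H.Dart, b.fst = v := by
        obtain ⟨b₀⟩ := hne
        by_cases hv : b₀.fst = v
        · exact ⟨b₀, hv⟩
        · obtain ⟨p⟩ := hHc.preconnected v b₀.fst
          cases p with
          | nil => exact absurd rfl hv
          | cons h _ => exact ⟨⟨(v, _), h⟩, rfl⟩
      obtain ⟨a, ha1, ha2⟩ := next_kept hH hσ.fst hσ.cyc d b (by rw [hb, hdv])
      refine ⟨a, key d₁ a fun u hu1 hu2 => ?_, ?_⟩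
      · rw [hd₁ u hu1 hu2, ha2 u hu1 hu2]
        exact hlab u hu1 d₀ d hd
      · refine Subtype.ext ?_
        rw [← upS_fst hH, ha1, hdv]
    · intro a ha
      refine key d₁ a fun u hu1 hu2 => ?_
      rw [hd₁ u hu1 hu2]
      exact hlab u hu1 d₀ _ ha
  · obtain ⟨b₀⟩ := hne
    refine ⟨b₀, ?_, ?_⟩
    · rintro v ⟨d, hd, hdv⟩
      exfalso
      obtain ⟨b, hb⟩ : ∃ b : H.Dart, b.fst = v := by
        by_cases hv : b₀.fst = v
        · exact ⟨b₀, hv⟩
        · obtain ⟨p⟩ := hHc.preconnected v b₀.fst
          cases p with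
          | nil => exact absurd rfl hv
          | cons h _ => exact ⟨⟨(v, _), h⟩, rfl⟩
      obtain ⟨a, ha1, ha2⟩ := next_kept hH hσ.fst hσ.cyc d b (by rw [hb, hdv])
      exact hex ⟨a, fun u hu1 hu2 => (ha2 u hu1 hu2).trans (hlab u hu1 d₀ d hd).symm⟩
    · intro a ha
      exact absurd ⟨a, fun u hu1 _ => (hlab u hu1 d₀ _ ha).symm⟩ hex

end Vale.Agent.P235.R2.H907
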