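import Vale.Agent.P235.R2.H907.Pad
import Vale.Agent.P235.R2.H341.KrSpec

/-!
P235-M (helper907 for helper680): random partitions with padding for graphs without a `K_r` minor.
-/

set_option autoImplicit false

namespace Vale.Agent.P235.Kr

open Vale.Agent.P235 Vale.Agent.P235.Kpr

/-- (Pk) random partitions, with padding -/
def RowPadK : Prop :=
  ∀ (V : Type) [Finite V] (G : SimpleGraph V) (ℓ : Sym2 V → ℝ) (r : ℕ), G.Connected →
    NoK r G → (∀ e ∈ G.edgeSet, 0 < ℓ e) →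
    ∀ (Δ : ℝ) (N : ℕ), 0 < Δ → 0 < N → ∃ c : (Fin (r + 2) → Fin N) → V → V,
      (∀ ω u v, c ω u = c ω v → pathDist G ℓ u v ≤ 8 * ((r : ℝ) + 2) ^ 2 * Δ) ∧
      ∀ u t, 0 ≤ t → ({ω | ∃ v, pathDist G ℓ u v ≤ t ∧ c ω u ≠ c ω v}.ncard : ℝ) ≤
        ((r : ℝ) + 2) * (N : ℝ) ^ (r + 2) * (2 * t / Δ + 1 / N)

end Vale.Agent.P235.Kr

namespace Vale.Agent.P235.R2.H907.KprPadK

open Vale.Agent.P235 Vale.Agent.P235.Kpr Vale.Agent.P235.Kr SimpleGraph
open Vale.Agent.P235.R2.H907.KprPad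

open Classical in
theorem parts {V : Type} [Finite V] {G : SimpleGraph V} {ℓ : Sym2 V → ℝ} (hc : G.Connected)
    (hℓ : ∀ e ∈ G.edgeSet, 0 < ℓ e) {Δ : ℝ} {N : ℕ} (hΔ : 0 < Δ) (hN : 0 < N)
    (h2 : RowPot) (h3 : RowCount) (n : ℕ) :
    ∃ (ι : Type) (_ : Fintype ι), Fintype.card ι = N ^ n ∧ ∀ H : SimpleGraph V, H ≤ G →
      ∃ K : ι → SimpleGraph V, (∀ ω, Chopped ℓ Δ n H (K ω)) ∧ ∀ u t, 0 ≤ t → KprPad.Good G ℓ u t H →
        ∑ ω : ι, (if ¬ KprPad.Good G ℓ u t (K ω) then (1 : ℝ) else 0) ≤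
          n * (N : ℝ) ^ n * (2 * t / Δ + 1 / N) := by
  have hNR : (0 : ℝ) < N := by exact_mod_cast hN
  induction n with
  | zero =>
    refine ⟨Unit, inferInstance, by simp, fun H _ => ⟨fun _ => H, fun _ => Chopped.zero H,
      fun u t _ hg => ?_⟩⟩
    simp [hg]
  | succ n ih =>
    obtain ⟨ι, _, hcard, hι⟩ := ih
    refine ⟨Fin N × ι, inferInstance, ?_, fun H hH => ?_⟩
    · rw [Fintype.card_prod, Fintype.card_fin, hcard, pow_succ']
    obtain ⟨f, r, hP⟩ := h2 V H ℓ fun e he => hℓ e (edgeSet_mono hH he)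
    have e1 : ∀ a : Fin N, chop H f Δ ((a : ℕ) * Δ / N) ≤ G := fun a => KprPad.chop_le.trans hH
    choose K hK1 hK2 using fun a : Fin N => hι (chop H f Δ ((a : ℕ) * Δ / N)) (e1 a)
    refine ⟨fun ω => K ω.1 ω.2, fun ω => Chopped.succ f r _ hP (hK1 ω.1 ω.2),
      fun u t ht hg => ?_⟩
    have hq : 0 ≤ 2 * t / Δ + 1 / N := by positivity
    have hc0 : (0 : ℝ) ≤ (N : ℝ) ^ n := by positivity
    have h4 := KprPad.count_bad (G := G) (ℓ := ℓ) (f := f) h3 hΔ hN ht (KprPad.good_lip hP hg)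
    rw [Fintype.sum_prod_type]
    have key : ∀ a : Fin N, ∑ ω : ι, (if ¬ KprPad.Good G ℓ u t (K a ω) then (1 : ℝ) else 0) ≤
        (if KprPad.Bad G ℓ Δ u t f ((a : ℕ) * Δ / N) then (1 : ℝ) else 0) * (N : ℝ) ^ n +
          n * (N : ℝ) ^ n * (2 * t / Δ + 1 / N) := by
      intro a
      have hnn : 0 ≤ n * (N : ℝ) ^ n * (2 * t / Δ + 1 / N) := by positivity
      by_cases hs : KprPad.Bad G ℓ Δ u t f ((a : ℕ) * Δ / N)
      · rw [if_pos hs, one_mul]
        have h5 : ∑ ω : ι, (if ¬ KprPad.Good G ℓ u t (K a ω) then (1 : ℝ) else 0) ≤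
            ∑ _ω : ι, (1 : ℝ) :=
          Finset.sum_le_sum fun ω _ => by split_ifs <;> norm_num
        rw [Finset.sum_const, Finset.card_univ, nsmul_eq_mul, mul_one, hcard] at h5
        push_cast at h5
        linarith
      · rw [if_neg hs, zero_mul, zero_add]
        exact hK2 a u t ht (KprPad.good_chop hc hℓ hH hg hs)
    refine (Finset.sum_le_sum fun a _ => key a).trans ?_
    rw [Finset.sum_add_distrib, ← Finset.sum_mul, Finset.sum_const, Finset.card_univ,
      Fintype.card_fin, nsmul_eq_mul]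
    have h6 := mul_le_mul_of_nonneg_right h4 hc0
    have h8 : (N * (2 * t) / Δ + 1) * (N : ℝ) ^ n = (N : ℝ) ^ (n + 1) * (2 * t / Δ + 1 / N) := by
      rw [pow_succ]
      field_simp
    push_cast
    calc _ ≤ (N * (2 * t) / Δ + 1) * (N : ℝ) ^ n +
          N * (n * (N : ℝ) ^ n * (2 * t / Δ + 1 / N)) := by linarith
      _ = _ := by rw [h8, pow_succ]; ring

open Classical in
theorem rowPadK (h2 : RowPot) (h3 : RowCount) (h5 : Kr.RowK2) : RowPadK := by
  intro V _ G ℓ r hc hM hℓ Δ N hΔ hN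
  have hNR : (0 : ℝ) < N := by exact_mod_cast hN
  have hH : KprPad.short G ℓ Δ ≤ G := fun _ _ h => h.1
  obtain ⟨ι, _, hcard, hι⟩ := parts hc hℓ hΔ hN h2 h3 (r + 2)
  obtain ⟨K', hK1', hK2'⟩ := hι (KprPad.short G ℓ Δ) hH
  have hce : Fintype.card (Fin (r + 2) → Fin N) = Fintype.card ι := by
    rw [hcard, Fintype.card_pi]
    simp
  let e : (Fin (r + 2) → Fin N) ≃ ι := Fintype.equivOfCardEq hce
  obtain ⟨K, hK⟩ : ∃ K : (Fin (r + 2) → Fin N) → SimpleGraph V, K = fun ω => K' (e ω) := ⟨_, rfl⟩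
  have hK1 : ∀ ω, Chopped ℓ Δ (r + 2) (KprPad.short G ℓ Δ) (K ω) := fun ω => by rw [hK]; exact hK1' _
  have hout : ∀ ω v, (K ω).connectedComponentMk (Quot.out ((K ω).connectedComponentMk v)) =
      (K ω).connectedComponentMk v := fun ω v => Quot.out_eq _
  refine ⟨fun ω v => Quot.out ((K ω).connectedComponentMk v), ?_, ?_⟩
  · intro ω u v huv
    have hr : (K ω).Reachable u v := by
      apply SimpleGraph.ConnectedComponent.exact
      have h1 := hout ω u
      have h2 := hout ω v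
      have h3 : Quot.out ((K ω).connectedComponentMk u) =
        Quot.out ((K ω).connectedComponentMk v) := huv
      rw [← h1, ← h2, h3]
    exact h5 V G (KprPad.short G ℓ Δ) (K ω) ℓ Δ r hc hM hℓ hH hΔ (fun _ _ h => h.2) (hK1 ω) u v hr
  · intro u t ht
    rw [KprPad.ncard_sum]
    by_cases hs : t ≤ Δ
    · have h6 := hK2' u t ht (KprPad.good_short hc hℓ hs)
      rw [← Equiv.sum_comp e] at h6
      push_cast at h6
      refine le_trans (Finset.sum_le_sum fun ω _ => ?_) h6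
      by_cases hg : KprPad.Good G ℓ u t (K' (e ω))
      · rw [if_neg]
        · split_ifs <;> norm_num
        · rintro ⟨v, hv, hne⟩
          apply hne
          obtain ⟨w, -⟩ := hg v hv
          have hr : (K ω).Reachable u v := by rw [hK]; exact ⟨w⟩
          exact congrArg (fun c : (K ω).ConnectedComponent => Quot.out c)
            (SimpleGraph.ConnectedComponent.sound hr)
      · rw [if_pos hg]
        split_ifs <;> norm_num
    · push Not at hs
      have h1 : ∑ ω : Fin (r + 2) → Fin N, (if ∃ v, pathDist G ℓ u v ≤ t ∧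
          Quot.out ((K ω).connectedComponentMk u) ≠
          Quot.out ((K ω).connectedComponentMk v) then (1 : ℝ) else 0) ≤ (N : ℝ) ^ (r + 2) := by
        have h7 : ∑ ω : Fin (r + 2) → Fin N, (if ∃ v, pathDist G ℓ u v ≤ t ∧
          Quot.out ((K ω).connectedComponentMk u) ≠
          Quot.out ((K ω).connectedComponentMk v) then (1 : ℝ) else 0) ≤
          ∑ _ω : Fin (r + 2) → Fin N, (1 : ℝ) :=
          Finset.sum_le_sum fun ω _ => by split_ifs <;> norm_num
        rw [Finset.sum_const, Finset.card_univ, nsmul_eq_mul, mul_one, hce, hcard] at h7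
        push_cast at h7
        exact h7
      refine h1.trans ?_
      have h2 : 1 ≤ 2 * t / Δ := by rw [le_div_iff₀ hΔ]; linarith
      have h3 : (0 : ℝ) ≤ 1 / N := by positivity
      have h4 : (0 : ℝ) ≤ (N : ℝ) ^ (r + 2) := by positivity
      have h5 : (0 : ℝ) ≤ (r : ℝ) := by positivity
      calc (N : ℝ) ^ (r + 2) = 1 * (N : ℝ) ^ (r + 2) * 1 := by ring
        _ ≤ ((r : ℝ) + 2) * (N : ℝ) ^ (r + 2) * (2 * t / Δ + 1 / N) := by
          gcongr <;> linarith

end Vale.Agent.P235.R2.H907.KprPadK
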