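import Vale.Agent.P235.R2.H718.UlgSpec

/-!
P235-M (helper907 for helper718): row (C), weights on the subsets.
-/

set_option autoImplicit false

namespace Vale.Agent.P235.Ulg

theorem third (k : ℕ) : (1 : ℝ) / 3 ≤ (1 - 1 / ((k : ℝ) + 1)) ^ k := by
  rcases Nat.eq_zero_or_pos k with rfl | hk
  · norm_num
  have hk' : (0 : ℝ) < k := by exact_mod_cast hk
  have h1 : 1 - 1 / ((k : ℝ) + 1) = (1 + 1 / (k : ℝ))⁻¹ := by
    field_simp
    ring
  have h2 : (1 + 1 / (k : ℝ)) ^ k ≤ 3 := by
    have h3 : 1 + 1 / (k : ℝ) ≤ Real.exp (1 / (k : ℝ)) := by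
      have := Real.add_one_le_exp (1 / (k : ℝ))
      linarith
    have h4 := pow_le_pow_left₀ (by positivity) h3 k
    rw [← Real.exp_nat_mul, show (k : ℝ) * (1 / (k : ℝ)) = 1 by field_simp] at h4
    have h5 := Real.exp_one_lt_d9
    linarith
  rw [h1, inv_pow, one_div]
  exact inv_anti₀ (by positivity) h2

theorem rowC : RowC := by
  intro ι _ _ j
  obtain ⟨p, hp⟩ : ∃ p : ℝ, p = 1 / 2 ^ j := ⟨_, rfl⟩
  have hp0 : 0 < p := by rw [hp]; positivity
  have hp1 : p ≤ 1 := by
    rw [hp, div_le_one (by positivity)]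
    exact one_le_pow₀ (by norm_num)
  have hq0 : 0 ≤ 1 - p := by linarith
  refine ⟨fun S => p ^ S.card * (1 - p) ^ (Fintype.card ι - S.card), fun S => by positivity,
    ?_, ?_⟩
  · have h := Finset.sum_pow_mul_eq_add_pow p (1 - p) (Finset.univ : Finset ι)
    rw [Finset.powerset_univ, add_sub_cancel, one_pow, Finset.card_univ] at h
    exact h
  · intro Q C hCQ hQ1 hQ2 hQC
    have hQ0 : 0 < Q.card := lt_of_lt_of_le (by positivity) hQ1
    have hQN : Q.card ≤ Fintype.card ι := Finset.card_le_univ Q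
    have hcc : (Qᶜ).card = Fintype.card ι - Q.card := Finset.card_compl Q
    have hinj : Set.InjOn (fun x : ι × Finset ι => insert x.1 x.2)
        ((C ×ˢ (Qᶜ).powerset : Finset (ι × Finset ι)) : Set (ι × Finset ι)) := by
      rintro ⟨i, S⟩ hx ⟨i', S'⟩ hx' heq
      simp only [Finset.coe_product, Set.mem_prod, Finset.mem_coe, Finset.mem_powerset] at hx hx'
      have heq' : insert i S = insert i' S' := heq
      have e1 : ∀ (a : ι) (T : Finset ι), a ∈ C → T ⊆ Qᶜ → insert a T ∩ Q = {a} ∧
          insert a T \ Q = T := by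
        intro a T ha hT
        constructor
        · ext z
          simp only [Finset.mem_inter, Finset.mem_insert, Finset.mem_singleton]
          constructor
          · rintro ⟨h | h, hz⟩
            · exact h
            · exact absurd hz (Finset.mem_compl.1 (hT h))
          · rintro rfl
            exact ⟨Or.inl rfl, hCQ ha⟩
        · ext z
          simp only [Finset.mem_sdiff, Finset.mem_insert]
          constructor
          · rintro ⟨h | h, hz⟩
            · exact absurd (h ▸ hCQ ha) hz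
            · exact h
          · intro h
            exact ⟨Or.inr h, Finset.mem_compl.1 (hT h)⟩
      obtain ⟨a1, a2⟩ := e1 i S hx.1 hx.2
      obtain ⟨b1, b2⟩ := e1 i' S' hx'.1 hx'.2
      rw [heq'] at a1 a2
      rw [a1] at b1
      rw [a2] at b2
      exact Prod.ext (Finset.singleton_injective b1) b2
    have hsub : (C ×ˢ (Qᶜ).powerset).image (fun x : ι × Finset ι => insert x.1 x.2) ⊆
        Finset.univ.filter (fun S : Finset ι => ∃ i ∈ C, S ∩ Q = {i}) := by
      intro S hS
      obtain ⟨⟨i, T⟩, hx, rfl⟩ := Finset.mem_image.1 hS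
      obtain ⟨hi, hT⟩ := Finset.mem_product.1 hx
      have hT' : T ⊆ Qᶜ := Finset.mem_powerset.1 hT
      refine Finset.mem_filter.2 ⟨Finset.mem_univ _, i, hi, ?_⟩
      ext z
      simp only [Finset.mem_inter, Finset.mem_insert, Finset.mem_singleton]
      constructor
      · rintro ⟨h | h, hz⟩
        · exact h
        · exact absurd hz (Finset.mem_compl.1 (hT' h))
      · rintro rfl
        exact ⟨Or.inl rfl, hCQ hi⟩
    have h1 := Finset.sum_le_sum_of_subset_of_nonneg (f := fun S : Finset ι =>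
      p ^ S.card * (1 - p) ^ (Fintype.card ι - S.card)) hsub fun S _ _ => by positivity
    rw [Finset.sum_image hinj, Finset.sum_product] at h1
    refine le_trans ?_ h1
    have h2 : ∀ i ∈ C, ∑ T ∈ (Qᶜ).powerset,
        p ^ (insert i T).card * (1 - p) ^ (Fintype.card ι - (insert i T).card) =
        p * (1 - p) ^ (Q.card - 1) := by
      intro i hi
      have h3 : ∀ T ∈ (Qᶜ).powerset,
          p ^ (insert i T).card * (1 - p) ^ (Fintype.card ι - (insert i T).card) =
          p * (1 - p) ^ (Q.card - 1) * (p ^ T.card * (1 - p) ^ ((Qᶜ).card - T.card)) := by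
        intro T hT
        have hT' : T ⊆ Qᶜ := Finset.mem_powerset.1 hT
        have hiT : i ∉ T := fun h => Finset.mem_compl.1 (hT' h) (hCQ hi)
        have hTc : T.card ≤ (Qᶜ).card := Finset.card_le_card hT'
        rw [Finset.card_insert_of_notMem hiT]
        have e : Fintype.card ι - (T.card + 1) = (Q.card - 1) + ((Qᶜ).card - T.card) := by
          rw [hcc] at hTc ⊢
          omega
        rw [e, pow_add, pow_succ]
        ring
      rw [Finset.sum_congr rfl h3, ← Finset.mul_sum, Finset.sum_pow_mul_eq_add_pow,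
        add_sub_cancel, one_pow, mul_one]
    rw [Finset.sum_congr rfl h2, Finset.sum_const, nsmul_eq_mul]
    -- numbers
    obtain ⟨k, hk⟩ : ∃ k, 2 ^ j = k + 1 := Nat.exists_eq_succ_of_ne_zero (by positivity)
    have hkp : (2 : ℝ) ^ j = (k : ℝ) + 1 := by exact_mod_cast hk
    have h4 : (1 : ℝ) / 9 ≤ (1 - p) ^ (Q.card - 1) := by
      have h5 : Q.card - 1 ≤ 2 * k := by
        rw [pow_succ, hk] at hQ2
        omega
      have h6 : (1 - p) ^ (2 * k) ≤ (1 - p) ^ (Q.card - 1) :=
        pow_le_pow_of_le_one hq0 (by linarith) h5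
      have h7 := third k
      rw [← hkp, ← hp] at h7
      have h8 : (1 - p) ^ (2 * k) = ((1 - p) ^ k) ^ 2 := by rw [← pow_mul, mul_comm]
      rw [h8] at h6
      have h9 : (1 : ℝ) / 9 ≤ ((1 - p) ^ k) ^ 2 := by nlinarith
      linarith
    have h5 : (1 : ℝ) / 2 ≤ (C.card : ℝ) * p := by
      have h6 : ((2 ^ j : ℕ) : ℝ) ≤ ((2 * C.card : ℕ) : ℝ) := by exact_mod_cast hQ1.trans hQC
      push_cast at h6
      rw [hp, mul_one_div, div_le_div_iff₀ (by norm_num) (by positivity)]
      linarith
    have h6 : (1 : ℝ) / 18 ≤ ((C.card : ℝ) * p) * (1 - p) ^ (Q.card - 1) := by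
      calc (1 : ℝ) / 18 = 1 / 2 * (1 / 9) := by norm_num
        _ ≤ _ := mul_le_mul h5 h4 (by norm_num) (by positivity)
    linarith

end Vale.Agent.P235.Ulg
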