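import Vale.Agent.P235.H105.Hop
import Vale.Agent.P235.R2.H341.CapDefs
import Mathlib.LinearAlgebra.Dual.Lemmas

/-!
# A new vertex in a face of a plane map (helper907)
-/

set_option autoImplicit false
set_option linter.all false

namespace Vale.Agent.P235.R2.H907

open SimpleGraph Finset Vale.Agent.P235 Vale.Agent.P235.H341W

attribute [local instance] finite_dart

/-- constant on cycles -/
theorem const_cyc {α β : Type} {f : Equiv.Perm α} {c : α → β} (h : ∀ x, c (f x) = c x)
    {x y : α} (hxy : f.SameCycle x y) : c x = c y := by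
  have hs : ∀ (n : ℤ) (d : α), c ((f ^ n) d) = c d := by
    intro n
    induction n using Int.induction_on with
    | zero => intro d; rfl
    | succ n ih =>
      intro d
      rw [zpow_add_one, Equiv.Perm.mul_apply, ih, h]
    | pred n ih =>
      intro d
      have h3 := h (f⁻¹ d)
      rw [show f (f⁻¹ d) = d from Equiv.apply_symm_apply _ _] at h3
      rw [zpow_sub_one, Equiv.Perm.mul_apply, ih, ← h3]
  obtain ⟨n, hn⟩ := hxy
  rw [← hn, hs]

/-- a function which is orthogonal to the invariant functions is a coboundary -/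
theorem exists_cobound {α : Type} [Fintype α] (φ : Equiv.Perm α) (W : α → ZMod 2)
    (h : ∀ f : α → ZMod 2, (∀ x, f (φ x) = f x) → ∑ x, W x * f x = 0) :
    ∃ g : α → ZMod 2, ∀ x, g (φ x) = g x + W x := by
  classical
  let D : (α → ZMod 2) →ₗ[ZMod 2] (α → ZMod 2) :=
    { toFun := fun f x => f (φ.symm x) - f x
      map_add' := fun a b => by
        ext x
        show (a _ + b _) - (a _ + b _) = (a _ - a _) + (b _ - b _)
        ring
      map_smul' := fun r a => by
        ext x
        show r * a _ - r * a _ = r * (a _ - a _)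
        ring }
  let L : Module.Dual (ZMod 2) (α → ZMod 2) :=
    { toFun := fun f => ∑ x, W x * f x
      map_add' := fun a b => by
        show ∑ x, W x * (a x + b x) = _
        rw [← Finset.sum_add_distrib]
        exact Finset.sum_congr rfl fun x _ => mul_add _ _ _
      map_smul' := fun r a => by
        show ∑ x, W x * (r * a x) = r * ∑ x, W x * a x
        rw [Finset.mul_sum]
        exact Finset.sum_congr rfl fun x _ => by ring }
  have h1 : L ∈ LinearMap.range D.dualMap := by
    rw [LinearMap.range_dualMap_eq_dualAnnihilator_ker, Submodule.mem_dualAnnihilator]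
    intro f hf
    refine h f fun x => ?_
    rw [LinearMap.mem_ker] at hf
    have h2 : f (φ.symm (φ x)) - f (φ x) = 0 := congrFun hf (φ x)
    rw [Equiv.symm_apply_apply, sub_eq_zero] at h2
    exact h2.symm
  obtain ⟨g, hg⟩ := h1
  refine ⟨fun x => g (Pi.single x 1), fun x => ?_⟩
  have h2 : g (D (Pi.single x 1)) = ∑ y, W y * (Pi.single x 1 : α → ZMod 2) y :=
    LinearMap.congr_fun hg (Pi.single x 1)
  have h3 : D (Pi.single x 1) = Pi.single (φ x) 1 - Pi.single x 1 := by
    ext y
    show (Pi.single x 1 : α → ZMod 2) (φ.symm y) - (Pi.single x 1 : α → ZMod 2) y =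
      (Pi.single (φ x) 1 : α → ZMod 2) y - (Pi.single x 1 : α → ZMod 2) y
    rw [Pi.single_apply, Pi.single_apply, Pi.single_apply]
    have h4 : (φ.symm y = x) = (y = φ x) := propext φ.symm_apply_eq
    simp only [h4]
  have h5 : ∑ y, W y * (Pi.single x 1 : α → ZMod 2) y = W x := by
    rw [Finset.sum_eq_single x]
    · rw [Pi.single_eq_same, mul_one]
    · intro y _ hy
      rw [Pi.single_eq_of_ne hy, mul_zero]
    · intro hx
      exact absurd (Finset.mem_univ x) hx
  rw [h3, h5, map_sub] at h2
  show g (Pi.single (φ x) 1) = g (Pi.single x 1) + W x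
  rw [← h2]
  ring

section cap

variable {V : Type} {G : SimpleGraph V} {T : Set V}

/-- darts of the capped graph -/
def toD : G.Dart ⊕ (T ⊕ T) → (capG G T).Dart
  | Sum.inl d => ⟨(some d.fst, some d.snd), d.adj⟩
  | Sum.inr (Sum.inl t) => ⟨(some t.1, none), t.2⟩
  | Sum.inr (Sum.inr t) => ⟨(none, some t.1), t.2⟩

theorem toD_surj : Function.Surjective (toD (G := G) (T := T)) := by
  rintro ⟨⟨_ | x, _ | y⟩, h⟩
  · exact absurd h id
  · exact ⟨Sum.inr (Sum.inr ⟨y, h⟩), rfl⟩
  · exact ⟨Sum.inr (Sum.inl ⟨x, h⟩), rfl⟩
  · exact ⟨Sum.inl ⟨(x, y), h⟩, rfl⟩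

theorem toD_inj : Function.Injective (toD (G := G) (T := T)) := by
  rintro (x | t | t) (y | s | s) h
  all_goals
    have h1 := congrArg (fun d : (capG G T).Dart => d.fst) h
    have h2 := congrArg (fun d : (capG G T).Dart => d.snd) h
    simp only [toD] at h1 h2
  · have h3 := Option.some.inj h1
    have h4 := Option.some.inj h2
    exact congrArg Sum.inl (Dart.ext _ _ (Prod.ext h3 h4))
  · exact absurd h2 (by simp)
  · exact absurd h1 (by simp)
  · exact absurd h2 (by simp)
  · have h3 := Option.some.inj h1
    rw [Subtype.ext h3]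
  · exact absurd h1 (by simp)
  · exact absurd h1 (by simp)
  · exact absurd h1 (by simp)
  · have h3 := Option.some.inj h2
    rw [Subtype.ext h3]

/-- reversal -/
def symA : G.Dart ⊕ (T ⊕ T) → G.Dart ⊕ (T ⊕ T)
  | Sum.inl d => Sum.inl d.symm
  | Sum.inr (Sum.inl t) => Sum.inr (Sum.inr t)
  | Sum.inr (Sum.inr t) => Sum.inr (Sum.inl t)

theorem toD_symm (a : G.Dart ⊕ (T ⊕ T)) : (toD a).symm = toD (symA a) := by
  rcases a with a | a | a <;> rfl

end cap

section rot

variable {V : Type} {G : SimpleGraph V} {T : Set V}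

open Classical in
/-- the chosen corner at a dart -/
noncomputable def kap (c : T → G.Dart) (d : G.Dart) : Option T :=
  if h : ∃ t, c t = d then some h.choose else none

variable {c : T → G.Dart}

theorem kap_c (hc : Function.Injective c) (t : T) : kap c (c t) = some t := by
  have h : ∃ s, c s = c t := ⟨t, rfl⟩
  rw [kap, dif_pos h]
  exact congrArg some (hc h.choose_spec)

theorem kap_some {d : G.Dart} {t : T} (h : kap c d = some t) : c t = d := by
  by_cases h1 : ∃ t, c t = d
  · rw [kap, dif_pos h1] at h
    rw [← Option.some.inj h]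
    exact h1.choose_spec
  · rw [kap, dif_neg h1] at h
    exact absurd h (by simp)

theorem kap_none {d : G.Dart} (h : kap c d = none) (t : T) : c t ≠ d := by
  intro h2
  rw [kap, dif_pos ⟨t, h2⟩] at h
  exact absurd h (by simp)

/-- the new rotation -/
noncomputable def rotF (σ : Equiv.Perm G.Dart) (c : T → G.Dart) (ρ : Equiv.Perm T) :
    G.Dart ⊕ (T ⊕ T) → G.Dart ⊕ (T ⊕ T)
  | Sum.inl x => (kap c (σ x)).elim (Sum.inl (σ x)) fun t => Sum.inr (Sum.inl t)
  | Sum.inr (Sum.inl t) => Sum.inl (c t)
  | Sum.inr (Sum.inr t) => Sum.inr (Sum.inr (ρ.symm t))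

variable {σ : Equiv.Perm G.Dart} {ρ : Equiv.Perm T}

theorem rotF_none {x : G.Dart} (h : kap c (σ x) = none) :
    rotF σ c ρ (Sum.inl x) = Sum.inl (σ x) := by
  show (kap c (σ x)).elim (Sum.inl (σ x)) (fun t => Sum.inr (Sum.inl t)) = _
  rw [h]
  rfl

theorem rotF_some {x : G.Dart} {t : T} (h : kap c (σ x) = some t) :
    rotF σ c ρ (Sum.inl x) = Sum.inr (Sum.inl t) := by
  show (kap c (σ x)).elim (Sum.inl (σ x)) (fun t => Sum.inr (Sum.inl t)) = _
  rw [h]
  rfl

theorem rotF_inj (hc : Function.Injective c) : Function.Injective (rotF σ c ρ) := by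
  have hmix : ∀ (x : G.Dart) (t : T), rotF σ c ρ (Sum.inl x) ≠ rotF σ c ρ (Sum.inr (Sum.inl t)) := by
    intro x t h
    rcases hx : kap c (σ x) with _ | s
    · rw [rotF_none hx] at h
      exact kap_none hx t (Sum.inl.inj h).symm
    · rw [rotF_some hx] at h
      exact absurd h (by simp [rotF])
  have hmix2 : ∀ (x : G.Dart) (t : T), rotF σ c ρ (Sum.inl x) ≠ rotF σ c ρ (Sum.inr (Sum.inr t)) := by
    intro x t h
    rcases hx : kap c (σ x) with _ | s
    · rw [rotF_none hx] at h
      exact absurd h (by simp [rotF])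
    · rw [rotF_some hx] at h
      exact absurd h (by simp [rotF])
  rintro (x | t | t) (y | s | s) h
  · rcases hx : kap c (σ x) with _ | s
    · rcases hy : kap c (σ y) with _ | r
      · rw [rotF_none hx, rotF_none hy] at h
        rw [σ.injective (Sum.inl.inj h)]
      · rw [rotF_none hx, rotF_some hy] at h
        exact absurd h (by simp)
    · rcases hy : kap c (σ y) with _ | r
      · rw [rotF_some hx, rotF_none hy] at h
        exact absurd h (by simp)
      · rw [rotF_some hx, rotF_some hy] at h
        have h1 := Sum.inl.inj (Sum.inr.inj h)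
        have h2 := kap_some hx
        have h3 := kap_some hy
        rw [h1, h3] at h2
        rw [σ.injective h2]
  · exact absurd h (hmix x s)
  · exact absurd h (hmix2 x s)
  · exact absurd h.symm (hmix y t)
  · have h1 : c t = c s := Sum.inl.inj h
    rw [hc h1]
  · exact absurd h (by simp [rotF])
  · exact absurd h.symm (hmix2 y t)
  · exact absurd h (by simp [rotF])
  · have h1 : ρ.symm t = ρ.symm s := Sum.inr.inj (Sum.inr.inj h)
    rw [ρ.symm.injective h1]

theorem rotF_fst (hfst : ∀ d, (σ d).fst = d.fst) (hcf : ∀ t, (c t).fst = t.1)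
    (a : G.Dart ⊕ (T ⊕ T)) : (toD (rotF σ c ρ a)).fst = (toD a).fst := by
  rcases a with x | t | t
  · rcases hx : kap c (σ x) with _ | s
    · rw [rotF_none hx]
      exact congrArg some (hfst x)
    · rw [rotF_some hx]
      have h := kap_some hx
      have h1 : s.1 = x.fst := by rw [← hcf s, h, hfst]
      exact congrArg some h1
  · exact congrArg some (hcf t)
  · rfl

end rot

section hom

variable {V : Type} [Fintype V] [DecidableEq V] {G : SimpleGraph V} {T : Set V}
  {σ : Equiv.Perm G.Dart}

/-- a cycle of the capped graph comes from a labelling with jumps at the new corners -/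
theorem exists_pot [Fintype G.Dart] [DecidableEq G.Dart] [Fintype T] (hG : G.Connected)
    (hσ : PlaneMap G σ) {c : T → G.Dart} (hci : Function.Injective c)
    (hcf : ∀ t, (c t).fst = t.1) {d₀ : G.Dart} (hcs : ∀ t, (faceNext σ).SameCycle d₀ (c t))
    (y : G.Dart → ZMod 2) (w : T → ZMod 2) (hy : ∀ d : G.Dart, y d.symm = y d)
    (h0 : ∑ t, w t = 0)
    (hv : ∀ v, (∑ d : G.Dart, if d.fst = v then y d else 0) +
      (∑ t, if t.1 = v then w t else 0) = 0) :
    ∃ u : G.Dart → ZMod 2, (∀ d, y d = u d + u d.symm) ∧
      (∀ d, (∀ t, c t ≠ faceNext σ d) → u (faceNext σ d) = u d) ∧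
      ∀ d t, c t = faceNext σ d → u (faceNext σ d) = u d + w t := by
  classical
  set W : G.Dart → ZMod 2 := fun x => ∑ t, if c t = x then w t else 0 with hW
  have hWc : ∀ t, W (c t) = w t := by
    intro t
    show ∑ s, (if c s = c t then w s else 0) = w t
    rw [Finset.sum_eq_single t]
    · rw [if_pos rfl]
    · intro s _ hs
      exact if_neg fun h => hs (hci h)
    · intro h
      exact absurd (Finset.mem_univ t) h
  have hW0 : ∀ d, (∀ t, c t ≠ d) → W d = 0 := by
    intro d hd
    exact Finset.sum_eq_zero fun t _ => if_neg (hd t)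
  obtain ⟨g, hg⟩ := exists_cobound (faceNext σ) (fun x => W (faceNext σ x)) (by
    intro f hf
    have h1 : ∑ x, W (faceNext σ x) * f x = ∑ x, W x * f x := by
      rw [← Equiv.sum_comp (faceNext σ) fun x => W x * f x]
      exact Finset.sum_congr rfl fun x _ => by rw [hf]
    have h2 : ∑ x, W x * f x = ∑ x, ∑ t, (if c t = x then w t * f x else 0) := by
      refine Finset.sum_congr rfl fun x _ => ?_
      show (∑ t, if c t = x then w t else 0) * f x = _
      rw [Finset.sum_mul]
      refine Finset.sum_congr rfl fun t _ => ?_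
      split_ifs
      · rfl
      · exact zero_mul _
    have h3 : ∀ t, f (c t) = f d₀ := fun t => (const_cyc hf (hcs t)).symm
    rw [h1, h2, Finset.sum_comm]
    have h4 : ∀ t, ∑ x, (if c t = x then w t * f x else 0) = w t * f d₀ := by
      intro t
      rw [Finset.sum_ite_eq, if_pos (Finset.mem_univ _), h3]
    rw [Finset.sum_congr rfl fun t _ => h4 t, ← Finset.sum_mul, h0, zero_mul])
  have hgs : ∀ x : G.Dart, g x.symm = g (σ x) + W (σ x) := by
    intro x
    have h1 := hg x.symm
    rw [faceNext_apply, Dart.symm_symm] at h1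
    rw [h1, add_assoc, CharTwo.add_self_eq_zero, add_zero]
  obtain ⟨u, hu, hyu⟩ := plane_cycle' hG hσ (fun x => y x + (g x + g x.symm)) (fun x => by
      show y x.symm + (g x.symm + g x.symm.symm) = y x + (g x + g x.symm)
      rw [hy, Dart.symm_symm, add_comm (g x.symm)]) (fun v => by
    rw [Finset.sum_filter]
    have e1 : ∑ x : G.Dart, (if x.fst = v then g x.symm else 0) =
        ∑ x : G.Dart, (if x.fst = v then g x + W x else 0) := by
      rw [← Equiv.sum_comp σ fun x => if x.fst = v then g x + W x else 0]
      refine Finset.sum_congr rfl fun x _ => ?_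
      rw [hσ.fst, hgs]
    have e2 : ∑ x : G.Dart, (if x.fst = v then W x else 0) = ∑ t, if t.1 = v then w t else 0 := by
      have h1 : ∀ x : G.Dart, (if x.fst = v then W x else 0) =
          ∑ t, if c t = x then (if t.1 = v then w t else 0) else 0 := by
        intro x
        by_cases hx : x.fst = v
        · rw [if_pos hx]
          refine Finset.sum_congr rfl fun t _ => ?_
          by_cases ht : c t = x
          · rw [if_pos ht, if_pos ht, if_pos]
            rw [← hcf, ht, hx]
          · rw [if_neg ht, if_neg ht]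
        · rw [if_neg hx]
          symm
          refine Finset.sum_eq_zero fun t _ => ?_
          by_cases ht : c t = x
          · rw [if_pos ht, if_neg]
            rw [← hcf, ht]
            exact hx
          · rw [if_neg ht]
      rw [Finset.sum_congr rfl fun x _ => h1 x, Finset.sum_comm]
      refine Finset.sum_congr rfl fun t _ => ?_
      rw [Finset.sum_ite_eq, if_pos (Finset.mem_univ _)]
    have e3 : ∑ x : G.Dart, (if x.fst = v then y x + (g x + g x.symm) else 0) =
        ∑ x : G.Dart, (if x.fst = v then y x else 0) +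
        (∑ x : G.Dart, (if x.fst = v then g x else 0) +
        ∑ x : G.Dart, (if x.fst = v then g x.symm else 0)) := by
      rw [← Finset.sum_add_distrib, ← Finset.sum_add_distrib]
      refine Finset.sum_congr rfl fun x _ => ?_
      split_ifs
      · rfl
      · simp
    have e4 : ∑ x : G.Dart, (if x.fst = v then g x + W x else 0) =
        ∑ x : G.Dart, (if x.fst = v then g x else 0) +
        ∑ x : G.Dart, (if x.fst = v then W x else 0) := by
      rw [← Finset.sum_add_distrib]
      refine Finset.sum_congr rfl fun x _ => ?_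
      split_ifs
      · rfl
      · simp
    rw [e3, e1, e4, e2, ← add_assoc (∑ x : G.Dart, (if x.fst = v then g x else 0)),
      CharTwo.add_self_eq_zero, zero_add]
    exact hv v)
  refine ⟨fun x => u x + g x, fun x => ?_, fun x hx => ?_, fun x t hx => ?_⟩
  · have h1 : y x + (g x + g x.symm) = u x + u x.symm := hyu x
    have h2 : y x = (u x + u x.symm) + (g x + g x.symm) := by
      rw [← h1, add_assoc, CharTwo.add_self_eq_zero, add_zero]
    rw [h2]
    ring
  · show u (faceNext σ x) + g (faceNext σ x) = u x + g x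
    rw [hu, hg, hW0 _ hx, add_zero]
  · show u (faceNext σ x) + g (faceNext σ x) = u x + g x + w t
    rw [hu, hg, ← hx, hWc, add_assoc]

end hom

/-- labels along the first return -/
theorem ret_label {α : Type} {T : Type} [Finite α] [Finite T] (φ : Equiv.Perm α) {c : T → α}
    (hc : Function.Injective c) {u : α → ZMod 2} {w : T → ZMod 2}
    (h1 : ∀ d, (∀ t, c t ≠ φ d) → u (φ d) = u d)
    (h2 : ∀ d t, c t = φ d → u (φ d) = u d + w t) (t : T) :
    u (c (retPerm φ hc t)) = u (c t) + w (retPerm φ hc t) := by
  have key : ∀ j : ℕ, j < retTime φ c t → u ((φ ^ j) (c t)) = u (c t) := by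
    intro j
    induction j with
    | zero =>
      intro _
      rw [pow_zero]
      rfl
    | succ j ih =>
      intro hj
      rw [pow_succ', Equiv.Perm.mul_apply, h1, ih (by omega)]
      intro s hs
      have h3 : (φ ^ (j + 1)) (c t) ∈ Set.range c :=
        ⟨s, by rw [pow_succ', Equiv.Perm.mul_apply]; exact hs⟩
      have := retTime_min φ c t (Nat.succ_pos j) h3
      omega
  have h3 := retTime_pos φ c t
  obtain ⟨m, hm⟩ := Nat.exists_eq_succ_of_ne_zero h3.ne'
  have h4 := retPerm_apply φ hc t
  rw [hm, pow_succ', Equiv.Perm.mul_apply] at h4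
  have h5 := h2 _ _ h4
  rw [← h4, key m (by omega)] at h5
  exact h5

/-- adding a vertex in a face keeps the graph connected -/
theorem cap_connected {V : Type} {G : SimpleGraph V} {T : Set V} (hG : G.Connected)
    (hT : T.Nonempty) : (capG G T).Connected := by
  obtain ⟨t, ht⟩ := hT
  have h1 : ∀ x y : V, (capG G T).Reachable (some x) (some y) := by
    intro x y
    obtain ⟨p⟩ := hG.preconnected x y
    induction p with
    | nil => exact SimpleGraph.Reachable.refl _
    | @cons a b c hab _ ih =>
      have h2 : (capG G T).Adj (some a) (some b) := hab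
      exact h2.reachable.trans ih
  have h3 : (capG G T).Adj (some t) none := ht
  have h4 : ∀ x : Option V, (capG G T).Reachable x (some t) := by
    rintro (_ | x)
    · exact h3.symm.reachable
    · exact h1 x t
  have : Nonempty (Option V) := ⟨none⟩
  exact ⟨fun x y => (h4 x).trans (h4 y).symm⟩

/-- **A new vertex can be joined to any vertices of one face of a plane map.** -/
theorem rowCap : RowCap := by
  intro V _ G σ d₀ T hG hσ hT hTf
  classical
  have : Fintype V := Fintype.ofFinite V
  have : Fintype G.Dart := Fintype.ofFinite _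
  have : Fintype (capG G T).Dart := Fintype.ofFinite _
  have : Fintype T := Fintype.ofFinite _
  have hch : ∀ t : T, ∃ d' : G.Dart, (faceNext σ).SameCycle d₀ d' ∧ d'.fst = t.1 :=
    fun t => hTf t.2
  choose c hcs hcf using hch
  have hci : Function.Injective c := by
    intro t s h
    apply Subtype.ext
    rw [← hcf t, ← hcf s, h]
  set ρ : Equiv.Perm T := retPerm (faceNext σ) hci with hρ
  have hρc : ∀ t s, ρ.SameCycle t s := fun t s =>
    retPerm_sameCycle (faceNext σ) hci ((hcs t).symm.trans (hcs s))
  set σ₁ : Equiv.Perm (G.Dart ⊕ (T ⊕ T)) :=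
    Equiv.ofBijective (rotF σ c ρ) (Finite.injective_iff_bijective.1 (rotF_inj hci)) with hσ₁
  set e : (G.Dart ⊕ (T ⊕ T)) ≃ (capG G T).Dart := Equiv.ofBijective toD ⟨toD_inj, toD_surj⟩
    with he
  set σ' : Equiv.Perm (capG G T).Dart := e.permCongr σ₁ with hσ'
  have hrot : ∀ a, σ' (toD a) = toD (rotF σ c ρ a) := by
    intro a
    show e (σ₁ (e.symm (e a))) = toD (rotF σ c ρ a)
    rw [Equiv.symm_apply_apply]
    rfl
  have hnext : ∀ a, faceNext σ' (toD a) = toD (rotF σ c ρ (symA a)) := by
    intro a
    rw [faceNext_apply, toD_symm, hrot]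
  refine ⟨σ', SurfMap.plane (cap_connected hG hT) ⟨?_, ?_, ?_⟩⟩
  · intro d
    obtain ⟨a, rfl⟩ := toD_surj d
    rw [hrot, rotF_fst hσ.fst hcf]
  · -- the rotation at every vertex is one cycle
    let q : G.Dart ⊕ (T ⊕ T) → Quotient (Equiv.Perm.SameCycle.setoid σ') :=
      fun a => Quotient.mk _ (toD a)
    have hq : ∀ a, q (rotF σ c ρ a) = q a := by
      intro a
      show Quotient.mk _ (toD (rotF σ c ρ a)) = Quotient.mk _ (toD a)
      rw [← hrot]
      exact Quotient.sound (Equiv.Perm.sameCycle_apply_left.2 (Equiv.Perm.SameCycle.refl _ _))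
    have hq1 : ∀ t, q (Sum.inl (c t)) = q (Sum.inr (Sum.inl t)) := fun t =>
      hq (Sum.inr (Sum.inl t))
    have hq2 : ∀ x, q (Sum.inl (σ x)) = q (Sum.inl x) := by
      intro x
      rw [← hq (Sum.inl x)]
      rcases hx : kap c (σ x) with _ | s
      · rw [rotF_none hx]
      · rw [rotF_some hx, ← hq1, kap_some hx]
    have hq3 : ∀ t s, q (Sum.inr (Sum.inr t)) = q (Sum.inr (Sum.inr s)) := by
      intro t s
      refine const_cyc (f := ρ) (c := fun t => q (Sum.inr (Sum.inr t))) (fun t => ?_) (hρc t s)
      have h1 : q (Sum.inr (Sum.inr (ρ.symm (ρ t)))) = q (Sum.inr (Sum.inr (ρ t))) :=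
        hq (Sum.inr (Sum.inr (ρ t)))
      rw [Equiv.symm_apply_apply] at h1
      exact h1.symm
    have hq4 : ∀ x y : G.Dart, x.fst = y.fst → q (Sum.inl x) = q (Sum.inl y) := by
      intro x y hxy
      exact const_cyc (f := σ) (c := fun x => q (Sum.inl x)) hq2 (hσ.cyc x y hxy)
    intro d d' hdd
    obtain ⟨a, rfl⟩ := toD_surj d
    obtain ⟨b, rfl⟩ := toD_surj d'
    have h : q a = q b := by
      rcases a with x | t | t <;> rcases b with y | s | s
      · exact hq4 x y (Option.some.inj hdd)
      · rw [← hq1]
        have h1 : x.fst = s.1 := Option.some.inj hdd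
        exact hq4 _ _ (by rw [hcf, h1])
      · exact absurd hdd (by simp [toD])
      · rw [← hq1]
        have h1 : t.1 = y.fst := Option.some.inj hdd
        exact hq4 _ _ (by rw [hcf, h1])
      · have h1 : t.1 = s.1 := Option.some.inj hdd
        rw [Subtype.ext h1]
      · exact absurd hdd (by simp [toD])
      · exact absurd hdd (by simp [toD])
      · exact absurd hdd (by simp [toD])
      · exact hq3 t s
    exact Quotient.exact h
  · -- Euler
    rw [add_zero]
    have hne : Nonempty (capG G T).Dart := ⟨toD (Sum.inl d₀)⟩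
    refine euler_of_cycles hne fun z hz hv => ?_
    have hsum : ∀ v : Option V, (∑ x : G.Dart, if some x.fst = v then z (toD (Sum.inl x)) else 0) +
        ((∑ t : T, if some t.1 = v then z (toD (Sum.inr (Sum.inl t))) else 0) +
        (∑ t : T, if none = v then z (toD (Sum.inr (Sum.inr t))) else 0)) = 0 := by
      intro v
      have h := hv v
      rw [Finset.sum_filter, ← Equiv.sum_comp e, Fintype.sum_sum_type,
        Fintype.sum_sum_type] at h
      exact h
    have hw : ∀ t : T, z (toD (Sum.inr (Sum.inl t))) = z (toD (Sum.inr (Sum.inr t))) := by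
      intro t
      rw [← hz (toD (Sum.inr (Sum.inr t)))]
      rfl
    obtain ⟨u, hu1, hu2, hu3⟩ := exists_pot hG hσ hci hcf hcs (fun x => z (toD (Sum.inl x)))
      (fun t => z (toD (Sum.inr (Sum.inl t)))) (fun x => hz (toD (Sum.inl x))) (by
        have h := hsum none
        simp only [reduceCtorEq, if_false, Finset.sum_const_zero, if_true, zero_add] at h
        rw [← h]
        exact Finset.sum_congr rfl fun t _ => hw t) (fun v => by
        have h := hsum (some v)
        simp only [reduceCtorEq, if_false, Finset.sum_const_zero, add_zero, Option.some.injEq] at h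
        exact h)
    have hret := ret_label (faceNext σ) hci hu2 hu3
    let u' : G.Dart ⊕ (T ⊕ T) → ZMod 2 := fun a => match a with
      | Sum.inl x => u x
      | Sum.inr (Sum.inl t) => u (c t) + z (toD (Sum.inr (Sum.inl t)))
      | Sum.inr (Sum.inr t) => u (c t)
    have hu' : ∀ a, u' (rotF σ c ρ (symA a)) = u' a := by
      rintro (x | t | t)
      · show u' (rotF σ c ρ (Sum.inl x.symm)) = u x
        rcases hx : kap c (σ x.symm) with _ | s
        · rw [rotF_none hx]
          exact hu2 x (kap_none hx)
        · rw [rotF_some hx]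
          show u (c s) + z (toD (Sum.inr (Sum.inl s))) = u x
          have h1 : c s = faceNext σ x := kap_some hx
          rw [h1, hu3 x s h1, add_assoc, CharTwo.add_self_eq_zero, add_zero]
      · show u (c (ρ.symm t)) = u (c t) + z (toD (Sum.inr (Sum.inl t)))
        have h1 := hret (ρ.symm t)
        rw [← hρ, Equiv.apply_symm_apply] at h1
        rw [h1, add_assoc, CharTwo.add_self_eq_zero, add_zero]
      · rfl
    refine ⟨fun d => u' (e.symm d), fun d => ?_, fun d => ?_⟩
    · obtain ⟨a, rfl⟩ := toD_surj d
      rw [hnext]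
      show u' (e.symm (e _)) = u' (e.symm (e a))
      rw [Equiv.symm_apply_apply, Equiv.symm_apply_apply]
      exact hu' a
    · obtain ⟨a, rfl⟩ := toD_surj d
      rw [toD_symm]
      show z (toD a) = u' (e.symm (e a)) + u' (e.symm (e (symA a)))
      rw [Equiv.symm_apply_apply, Equiv.symm_apply_apply]
      rcases a with x | t | t
      · exact hu1 x
      · show z (toD (Sum.inr (Sum.inl t))) = u (c t) + z (toD (Sum.inr (Sum.inl t))) + u (c t)
        rw [add_comm (u (c t)), add_assoc, CharTwo.add_self_eq_zero, add_zero]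
      · show z (toD (Sum.inr (Sum.inr t))) = u (c t) + (u (c t) + z (toD (Sum.inr (Sum.inl t))))
        rw [← add_assoc, CharTwo.add_self_eq_zero, zero_add, hw]

end Vale.Agent.P235.R2.H907
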