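import Vale.Agent.P235.R2.H680.KprRSpec

/-!
P235-M (helper907, second hand): row R6 of helper680's rows for `K_{r,r}` (random partitions).
-/

set_option autoImplicit false

namespace Vale.Agent.P235.R2.H907.KprRPart

open Vale.Agent.P235 Vale.Agent.P235.Kpr Vale.Agent.P235.KprR SimpleGraph

theorem ncard_sum {α : Type} [Fintype α] (p : α → Prop) [DecidablePred p] :
    (({x | p x} : Set α).ncard : ℝ) = ∑ x, if p x then (1 : ℝ) else 0 := by
  rw [Set.ncard_eq_toFinset_card', Set.toFinset_ofPred, Finset.card_filter]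
  push_cast
  rfl

theorem chop_le {V : Type} {H : SimpleGraph V} {f : V → ℝ} {Δ θ : ℝ} : chop H f Δ θ ≤ H :=
  fun _ _ h => h.1

open Classical in
theorem parts {V : Type} [Finite V] {G : SimpleGraph V} {ℓ : Sym2 V → ℝ}
    (hℓ : ∀ e ∈ G.edgeSet, 0 < ℓ e) {Δ : ℝ} {N : ℕ} (hΔ : 0 < Δ) (hN : 0 < N)
    (h2 : RowPot) (h3 : RowCount) (n : ℕ) :
    ∃ (ι : Type) (_ : Fintype ι) (_ : Nonempty ι), ∀ H : SimpleGraph V, H ≤ G →
      ∃ K : ι → SimpleGraph V, (∀ ω, Chops ℓ Δ n H (K ω)) ∧ ∀ u v, H.Adj u v →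
        ({ω | ¬ (K ω).Adj u v}.ncard : ℝ) ≤ n * (Nat.card ι : ℝ) * (ℓ s(u, v) / Δ + 1 / N) := by
  have hNR : (0 : ℝ) < N := by exact_mod_cast hN
  induction n with
  | zero =>
    refine ⟨Unit, inferInstance, inferInstance, fun H _ => ⟨fun _ => H, fun _ => Chops.zero H,
      fun u v huv => ?_⟩⟩
    simp [huv]
  | succ n ih =>
    obtain ⟨ι, _, _, hι⟩ := ih
    have : Nonempty (Fin N) := ⟨⟨0, hN⟩⟩
    refine ⟨Fin N × ι, inferInstance, inferInstance, fun H hH => ?_⟩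
    obtain ⟨f, r, hP⟩ := h2 V H ℓ fun e he => hℓ e (edgeSet_mono hH he)
    have e1 : ∀ a : Fin N, chop H f Δ ((a : ℕ) * Δ / N) ≤ G := fun a => chop_le.trans hH
    choose K hK1 hK2 using fun a : Fin N => hι (chop H f Δ ((a : ℕ) * Δ / N)) (e1 a)
    refine ⟨fun ω => K ω.1 ω.2, fun ω => Chops.succ hP (hK1 ω.1 ω.2), fun u v huv => ?_⟩
    have hl0 : 0 < ℓ s(u, v) := hℓ _ (G.mem_edgeSet.2 (hH huv))
    have hq : 0 ≤ ℓ s(u, v) / Δ + 1 / N := by positivity
    have hc : (0 : ℝ) ≤ Nat.card ι := by positivity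
    have h4 := h3 (f u) (f v) (ℓ s(u, v)) Δ N (hP.lip u v huv) hΔ hN
    rw [ncard_sum] at h4
    rw [ncard_sum, Fintype.sum_prod_type]
    have key : ∀ a : Fin N, ∑ ω : ι, (if ¬ (K a ω).Adj u v then (1 : ℝ) else 0) ≤
        (if ⌊(f u + (a : ℕ) * Δ / N) / Δ⌋ ≠ ⌊(f v + (a : ℕ) * Δ / N) / Δ⌋ then (1 : ℝ) else 0) *
          (Nat.card ι : ℝ) + n * (Nat.card ι : ℝ) * (ℓ s(u, v) / Δ + 1 / N) := by
      intro a
      have hnn : 0 ≤ n * (Nat.card ι : ℝ) * (ℓ s(u, v) / Δ + 1 / N) := by positivity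
      by_cases hs : ⌊(f u + (a : ℕ) * Δ / N) / Δ⌋ ≠ ⌊(f v + (a : ℕ) * Δ / N) / Δ⌋
      · rw [if_pos hs, one_mul]
        have h5 : ∑ ω : ι, (if ¬ (K a ω).Adj u v then (1 : ℝ) else 0) ≤ ∑ ω : ι, (1 : ℝ) :=
          Finset.sum_le_sum fun ω _ => by split_ifs <;> norm_num
        rw [Finset.sum_const, Finset.card_univ, nsmul_eq_mul, mul_one,
          ← Nat.card_eq_fintype_card] at h5
        linarith
      · rw [if_neg hs, zero_mul, zero_add, ← ncard_sum]
        exact hK2 a u v ⟨huv, not_not.1 hs⟩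
    refine (Finset.sum_le_sum fun a _ => key a).trans ?_
    rw [Finset.sum_add_distrib, ← Finset.sum_mul, Finset.sum_const, Finset.card_univ,
      Fintype.card_fin, nsmul_eq_mul]
    have h6 := mul_le_mul_of_nonneg_right h4 hc
    have h7 : ((Nat.card (Fin N × ι) : ℕ) : ℝ) = N * (Nat.card ι : ℝ) := by
      rw [Nat.card_prod, Nat.card_eq_fintype_card, Fintype.card_fin]
      push_cast
      rfl
    rw [h7]
    have h8 : (N * ℓ s(u, v) / Δ + 1) * (Nat.card ι : ℝ) =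
        N * (Nat.card ι : ℝ) * (ℓ s(u, v) / Δ + 1 / N) := by
      field_simp
    push_cast
    calc _ ≤ (N * ℓ s(u, v) / Δ + 1) * (Nat.card ι : ℝ) +
          N * (n * (Nat.card ι : ℝ) * (ℓ s(u, v) / Δ + 1 / N)) := by linarith
      _ = _ := by rw [h8]; ring

/-- the edges of length at most `Δ` -/
def short {V : Type} (G : SimpleGraph V) (ℓ : Sym2 V → ℝ) (Δ : ℝ) : SimpleGraph V where
  Adj u v := G.Adj u v ∧ ℓ s(u, v) ≤ Δ
  symm := ⟨fun _ _ h => ⟨h.1.symm, by rw [Sym2.eq_swap]; exact h.2⟩⟩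
  loopless := ⟨fun _ h => h.1.ne rfl⟩

theorem rowKPR (h2 : RowPot) (h3 : RowCount) (h5 : KprR.RowDiam) : KprR.RowKPR := by
  intro m V _ G ℓ hc hM hℓ Δ N hΔ hN
  classical
  have hNR : (0 : ℝ) < N := by exact_mod_cast hN
  have hH : short G ℓ Δ ≤ G := fun _ _ h => h.1
  obtain ⟨ι, _, _, hι⟩ := parts hℓ hΔ hN h2 h3 (m + 2)
  obtain ⟨K, hK1, hK2⟩ := hι (short G ℓ Δ) hH
  have hout : ∀ ω v, (K ω).connectedComponentMk (Quot.out ((K ω).connectedComponentMk v)) =
      (K ω).connectedComponentMk v := fun ω v => Quot.out_eq _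
  refine ⟨ι, inferInstance, inferInstance,
    fun ω v => Quot.out ((K ω).connectedComponentMk v), ?_, ?_⟩
  · intro ω u v huv
    have hr : (K ω).Reachable u v := by
      apply SimpleGraph.ConnectedComponent.exact
      have h1 := hout ω u
      have h2 := hout ω v
      have h3 : Quot.out ((K ω).connectedComponentMk u) =
        Quot.out ((K ω).connectedComponentMk v) := huv
      rw [← h1, ← h2, h3]
    exact h5 m V G (short G ℓ Δ) (K ω) ℓ Δ hc hM hℓ hH hΔ (fun _ _ h => h.2) (hK1 ω) u v hr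
  · intro u v huv
    have hl0 : 0 < ℓ s(u, v) := hℓ _ (G.mem_edgeSet.2 huv)
    by_cases hs : ℓ s(u, v) ≤ Δ
    · have h6 := hK2 u v ⟨huv, hs⟩
      push_cast at h6
      refine le_trans ?_ h6
      have h7 : {ω | Quot.out ((K ω).connectedComponentMk u) ≠
          Quot.out ((K ω).connectedComponentMk v)} ⊆ {ω | ¬ (K ω).Adj u v} := by
        intro ω hω hadj
        apply hω
        rw [SimpleGraph.ConnectedComponent.sound hadj.reachable]
      exact_mod_cast Set.ncard_le_ncard h7 (Set.toFinite _)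
    · push Not at hs
      have h1 : (({ω | Quot.out ((K ω).connectedComponentMk u) ≠
          Quot.out ((K ω).connectedComponentMk v)} : Set ι).ncard : ℝ) ≤ (Nat.card ι : ℝ) := by
        exact_mod_cast Set.ncard_le_card _
      refine h1.trans ?_
      have h2 : 1 ≤ ℓ s(u, v) / Δ := by rw [le_div_iff₀ hΔ]; linarith
      have h3 : (0 : ℝ) ≤ 1 / N := by positivity
      have h4 : (0 : ℝ) ≤ (Nat.card ι : ℝ) := by positivity
      have h5 : (0 : ℝ) ≤ (m : ℝ) := by positivity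
      calc (Nat.card ι : ℝ) = 1 * (Nat.card ι : ℝ) * 1 := by ring
        _ ≤ ((m : ℝ) + 2) * (Nat.card ι : ℝ) * (ℓ s(u, v) / Δ + 1 / N) := by
          gcongr <;> linarith

end Vale.Agent.P235.R2.H907.KprRPart
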