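import Vale.Agent.P235.R2.H680.KprRSpec
import Vale.Agent.P235.Comp.PathSum

/-!
P235-M (helper907, one more hand): row R7 of helper680's rows for `K_{r,r}`: random retractions onto
any set, with one application of the random partitions to the lengths divided by the distance to
the set.
-/

set_option autoImplicit false

namespace Vale.Agent.P235.R2.H907.KprRRetr

open Vale.Agent.P235 Vale.Agent.P235.Kpr Vale.Agent.P235.KprR SimpleGraph

variable {V : Type} {G : SimpleGraph V} {ℓ : Sym2 V → ℝ} {A : V → ℝ}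

/-- the smaller one of the values of `A` at the ends -/
noncomputable def mn (A : V → ℝ) : Sym2 V → ℝ :=
  Sym2.lift ⟨fun a b => min (A a) (A b), fun a b => min_comm _ _⟩

open Classical in
/-- relative lengths -/
noncomputable def lam (ℓ : Sym2 V → ℝ) (A : V → ℝ) (e : Sym2 V) : ℝ :=
  if 0 < mn A e then ℓ e / mn A e else 1

theorem lam_pos (hℓ : ∀ e ∈ G.edgeSet, 0 < ℓ e) : ∀ e ∈ G.edgeSet, 0 < lam ℓ A e := by
  intro e he
  unfold lam
  split_ifs with h
  · exact div_pos (hℓ e he) h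
  · exact one_pos

theorem walk_bd (hℓ : ∀ e ∈ G.edgeSet, 0 < ℓ e) (hA0 : ∀ v, 0 ≤ A v)
    (hA : ∀ u v, G.Adj u v → A v ≤ A u + ℓ s(u, v)) {a v : V} (w : G.Walk a v)
    (hw : (w.edges.map (lam ℓ A)).sum < 1) :
    (w.edges.map ℓ).sum * (1 - (w.edges.map (lam ℓ A)).sum) ≤
      A a * (w.edges.map (lam ℓ A)).sum := by
  induction w with
  | nil => simp
  | @cons a b v h p ih =>
    have hlam := lam_pos (A := A) hℓ
    rw [Walk.edges_cons, List.map_cons, List.sum_cons] at hw
    simp only [Walk.edges_cons, List.map_cons, List.sum_cons]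
    have h1 := walk_nonneg hlam p
    have h1' := walk_nonneg hℓ p
    have h2 := hlam _ (G.mem_edgeSet.2 h)
    have h3 := hℓ _ (G.mem_edgeSet.2 h)
    have ih' := ih (by linarith)
    have hmn : mn A s(a, b) = min (A a) (A b) := rfl
    have hpos : 0 < mn A s(a, b) := by
      by_contra hcon
      have : lam ℓ A s(a, b) = 1 := by unfold lam; rw [if_neg hcon]
      linarith
    have hx : ℓ s(a, b) ≤ lam ℓ A s(a, b) * A a := by
      have h4 : lam ℓ A s(a, b) = ℓ s(a, b) / mn A s(a, b) := by unfold lam; rw [if_pos hpos]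
      have h5 : lam ℓ A s(a, b) * mn A s(a, b) = ℓ s(a, b) := by
        rw [h4]; exact div_mul_cancel₀ _ hpos.ne'
      have h6 : mn A s(a, b) ≤ A a := by rw [hmn]; exact min_le_left _ _
      have h7 := mul_le_mul_of_nonneg_left h6 h2.le
      linarith
    have hAb := hA a b h
    generalize lam ℓ A s(a, b) = x at *
    generalize ℓ s(a, b) = l at *
    generalize (List.map (lam ℓ A) p.edges).sum = L at *
    generalize (List.map ℓ p.edges).sum = M at *
    have hAa := hA0 a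
    -- `M (1 - L) ≤ (A a + l) L`
    have s1 : M * (1 - L) ≤ (A a + l) * L := ih'.trans (mul_le_mul_of_nonneg_right hAb h1)
    have s2 : 0 ≤ M * x := mul_nonneg h1' h2.le
    have s3 : l * (1 - x) ≤ x * A a * (1 - x) :=
      mul_le_mul_of_nonneg_right hx (by linarith)
    have s4 : 0 ≤ x * A a * x := by positivity
    nlinarith

theorem dist_bd [Finite V] (hc : G.Connected) (hℓ : ∀ e ∈ G.edgeSet, 0 < ℓ e)
    (hA0 : ∀ v, 0 ≤ A v) (hA : ∀ u v, G.Adj u v → A v ≤ A u + ℓ s(u, v)) {u v : V}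
    (h : pathDist G (lam ℓ A) u v ≤ 1 / 4) : pathDist G ℓ u v ≤ A u / 3 := by
  obtain ⟨p, hp⟩ := exists_geodesic hc (lam_pos (A := A) hℓ) u v
  have h1 := walk_bd hℓ hA0 hA p (by linarith)
  have h2 := pathDist_le hℓ p
  have h3 := walk_nonneg hℓ p
  have h4 := walk_nonneg (lam_pos (A := A) hℓ) p
  rw [← hp] at h
  have hAu := hA0 u
  generalize (List.map (lam ℓ A) p.edges).sum = L at *
  generalize (List.map ℓ p.edges).sum = M at *
  have h5 : M * (3 / 4) ≤ M * (1 - L) := mul_le_mul_of_nonneg_left (by linarith) h3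
  have h6 : A u * L ≤ A u * (1 / 4) := mul_le_mul_of_nonneg_left h hAu
  linarith

theorem rowRetr (h6 : KprR.RowKPR) : KprR.RowRetr := by
  intro m V _ G ℓ hc hM hℓ X ν hν
  classical
  obtain ⟨q, hq⟩ : ∃ q : ℝ, q = (m : ℝ) + 2 := ⟨_, rfl⟩
  have hm0 : (0 : ℝ) ≤ m := by positivity
  have hq2 : 2 ≤ q := by rw [hq]; linarith
  have hMet := pathDist_isMet hc hℓ
  have hd0 : ∀ a b, 0 ≤ pathDist G ℓ a b := pathDist_nonneg hℓ
  obtain ⟨A, hAdef⟩ : ∃ A : V → ℝ, A = fun v => pathDist G ℓ v (ν v) := ⟨_, rfl⟩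
  have hAv : ∀ v, A v = pathDist G ℓ v (ν v) := fun v => by rw [hAdef]
  have hA0 : ∀ v, 0 ≤ A v := fun v => by rw [hAv]; exact hd0 _ _
  have hAlip : ∀ u v, A v ≤ A u + pathDist G ℓ u v := fun u v => by
    rw [hAv, hAv]
    have h1 := hν.le v (ν u) (hν.mem u)
    have h2 := hMet.tri v u (ν u)
    rw [hMet.symm v u] at h2
    linarith
  have hA : ∀ u v, G.Adj u v → A v ≤ A u + ℓ s(u, v) := fun u v h => by
    have h1 := hAlip u v
    have h2 := pathDist_adj hℓ h
    linarith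
  have hlam := lam_pos (A := A) hℓ
  -- the number of shifts
  obtain ⟨N, hN, hNb⟩ : ∃ N : ℕ, 0 < N ∧ ∀ e ∈ G.edgeSet, mn A e ≤ N * ℓ e := by
    obtain ⟨B, hB⟩ := (Set.toFinite ((fun e => mn A e / ℓ e) '' G.edgeSet)).bddAbove
    refine ⟨⌈B⌉₊ + 1, Nat.succ_pos _, fun e he => ?_⟩
    have h1 : mn A e / ℓ e ≤ B := hB ⟨e, he, rfl⟩
    rw [div_le_iff₀ (hℓ e he)] at h1
    refine h1.trans (mul_le_mul_of_nonneg_right ?_ (hℓ e he).le)
    have := Nat.le_ceil B
    push_cast
    linarith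
  have hNR : (0 : ℝ) < N := by exact_mod_cast hN
  obtain ⟨Δ, hΔdef⟩ : ∃ Δ : ℝ, Δ = 1 / (40 * q ^ 2) := ⟨_, rfl⟩
  have hΔ : 0 < Δ := by rw [hΔdef]; positivity
  obtain ⟨ι, _, _, c, hc1, hc2⟩ := h6 m V G (lam ℓ A) hc hM hlam Δ N hΔ hN
  have hdiam : ∀ ω u v, c ω u = c ω v → pathDist G ℓ u v ≤ A u / 3 := by
    intro ω u v huv
    refine dist_bd hc hℓ hA0 hA ((hc1 ω u v huv).trans (le_of_eq ?_))
    rw [← hq, hΔdef]
    field_simp
    norm_num
  -- representatives
  let g : ι → V → V := fun ω w => if h : ∃ z, c ω z = w then h.choose else w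
  have hg : ∀ ω v, c ω (g ω (c ω v)) = c ω v := by
    intro ω v
    have h : ∃ z, c ω z = c ω v := ⟨v, rfl⟩
    show c ω (if h : ∃ z, c ω z = c ω v then h.choose else c ω v) = c ω v
    rw [dif_pos h]
    exact h.choose_spec
  have hcard : (0 : ℝ) < Nat.card ι := by exact_mod_cast Nat.card_pos
  have hπ : ∀ ω v, pathDist G ℓ v (ν (g ω (c ω v))) ≤ 5 / 3 * A v := by
    intro ω v
    have h1 := hdiam ω v (g ω (c ω v)) (hg ω v).symm
    have h2 := hAlip v (g ω (c ω v))
    have h3 := hMet.tri v (g ω (c ω v)) (ν (g ω (c ω v)))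
    rw [← hAv] at h3
    have := hA0 v
    linarith
  refine ⟨ι, inferInstance, fun _ => 1 / (Nat.card ι : ℝ), fun ω v => ν (g ω (c ω v)),
    fun _ => by positivity, ?_, fun ω v => hν.mem _, ?_, ?_⟩
  · rw [Finset.sum_const, Finset.card_univ, nsmul_eq_mul, ← Nat.card_eq_fintype_card]
    field_simp
  · intro u v huv
    have hl := hℓ _ (G.mem_edgeSet.2 huv)
    have hmn : mn A s(u, v) = min (A u) (A v) := rfl
    have hmn0 : 0 ≤ mn A s(u, v) := by rw [hmn]; exact le_min (hA0 u) (hA0 v)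
    have hsum : A u + A v ≤ 2 * mn A s(u, v) + ℓ s(u, v) := by
      have h1 := hA u v huv
      have h2 := hA v u huv.symm
      rw [Sym2.eq_swap] at h2
      rw [hmn]
      rcases min_cases (A u) (A v) with h | h
      · rw [h.1]; linarith
      · rw [h.1]; linarith
    have hone : ∀ ω, pathDist G ℓ (ν (g ω (c ω u))) (ν (g ω (c ω v))) ≤
        10 / 3 * mn A s(u, v) + 8 / 3 * ℓ s(u, v) := by
      intro ω
      have h1 := hπ ω u
      have h2 := hπ ω v
      have h3 := hMet.tri (ν (g ω (c ω u))) u (ν (g ω (c ω v)))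
      have h4 := hMet.tri u v (ν (g ω (c ω v)))
      have h5 := pathDist_adj hℓ huv
      rw [hMet.symm (ν (g ω (c ω u))) u] at h3
      linarith
    have hq3 : 1 ≤ q ^ 3 := by
      have : (1 : ℝ) ≤ q := by linarith
      exact one_le_pow₀ this
    rw [← hq]
    rw [← Finset.mul_sum, one_div, inv_mul_le_iff₀ hcard]
    by_cases hcase : mn A s(u, v) ≤ 4 * ℓ s(u, v)
    · have h1 : ∑ ω : ι, pathDist G ℓ (ν (g ω (c ω u))) (ν (g ω (c ω v))) ≤
          ∑ _ω : ι, 16 * ℓ s(u, v) := Finset.sum_le_sum fun ω _ => by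
        have := hone ω
        linarith
      rw [Finset.sum_const, Finset.card_univ, nsmul_eq_mul, ← Nat.card_eq_fintype_card] at h1
      refine h1.trans (mul_le_mul_of_nonneg_left ?_ hcard.le)
      nlinarith
    · push Not at hcase
      have hmp : 0 < mn A s(u, v) := by linarith
      have hlamv : lam ℓ A s(u, v) = ℓ s(u, v) / mn A s(u, v) := by unfold lam; rw [if_pos hmp]
      have h1 : ∀ ω : ι, pathDist G ℓ (ν (g ω (c ω u))) (ν (g ω (c ω v))) ≤
          4 * mn A s(u, v) * (if c ω u ≠ c ω v then (1 : ℝ) else 0) := by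
        intro ω
        by_cases h : c ω u ≠ c ω v
        · rw [if_pos h]
          have := hone ω
          linarith
        · rw [if_neg h, mul_zero, not_not.1 h, hMet.self]
      refine (Finset.sum_le_sum fun ω _ => h1 ω).trans ?_
      rw [← Finset.mul_sum]
      have h2 : ∑ ω : ι, (if c ω u ≠ c ω v then (1 : ℝ) else 0) =
          (({ω | c ω u ≠ c ω v} : Set ι).ncard : ℝ) := by
        rw [Set.ncard_eq_toFinset_card', Set.toFinset_ofPred, Finset.card_filter]
        push_cast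
        rfl
      rw [h2]
      have h3 := hc2 u v huv
      rw [← hq] at h3
      have h4 : q * (Nat.card ι : ℝ) * (lam ℓ A s(u, v) / Δ + 1 / N) * mn A s(u, v) ≤
          (Nat.card ι : ℝ) * (41 * q ^ 3 * ℓ s(u, v)) := by
        have h5 : lam ℓ A s(u, v) / Δ * mn A s(u, v) = 40 * q ^ 2 * ℓ s(u, v) := by
          rw [hlamv, hΔdef]
          field_simp
        have h6 : 1 / (N : ℝ) * mn A s(u, v) ≤ ℓ s(u, v) := by
          rw [one_div, inv_mul_le_iff₀ hNR]
          exact hNb _ (G.mem_edgeSet.2 huv)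
        have h7 : (lam ℓ A s(u, v) / Δ + 1 / N) * mn A s(u, v) ≤
            40 * q ^ 2 * ℓ s(u, v) + ℓ s(u, v) := by
          rw [add_mul, h5]
          linarith
        have h8 : q * (40 * q ^ 2 * ℓ s(u, v) + ℓ s(u, v)) ≤ 41 * q ^ 3 * ℓ s(u, v) := by
          have h9 : q ≤ q ^ 3 := by nlinarith [sq_nonneg q]
          nlinarith [mul_le_mul_of_nonneg_right h9 hl.le]
        calc q * (Nat.card ι : ℝ) * (lam ℓ A s(u, v) / Δ + 1 / N) * mn A s(u, v)
            = (Nat.card ι : ℝ) * (q * ((lam ℓ A s(u, v) / Δ + 1 / N) * mn A s(u, v))) := by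
              ring
          _ ≤ (Nat.card ι : ℝ) * (q * (40 * q ^ 2 * ℓ s(u, v) + ℓ s(u, v))) := by
              gcongr
          _ ≤ (Nat.card ι : ℝ) * (41 * q ^ 3 * ℓ s(u, v)) := by gcongr
      have h5 := mul_le_mul_of_nonneg_right h3 hmp.le
      have h6 : (0 : ℝ) ≤ (Nat.card ι : ℝ) * (q ^ 3 * ℓ s(u, v)) := by positivity
      nlinarith
  · intro ω v
    have h1 := hπ ω v
    have h2 := hA0 v
    rw [← hAv]
    linarith

end Vale.Agent.P235.R2.H907.KprRRetr
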