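import Vale.Agent.P235.R2.H718.DescSpec
import Vale.Agent.P235.Comp.PathSum

/-!
P235-M (helper907, second hand): the row `RowPad` of helper718: random partitions of a plane graph
with padding.
-/

set_option autoImplicit false

namespace Vale.Agent.P235.R2.H907.KprPad

open Vale.Agent.P235 Vale.Agent.P235.Kpr SimpleGraph

variable {V : Type} {G H : SimpleGraph V} {ℓ : Sym2 V → ℝ} {Δ θ : ℝ} {f : V → ℝ} {r : V → V}

/-- the edges of length at most `Δ` -/
def short (G : SimpleGraph V) (ℓ : Sym2 V → ℝ) (Δ : ℝ) : SimpleGraph V where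
  Adj u v := G.Adj u v ∧ ℓ s(u, v) ≤ Δ
  symm := ⟨fun _ _ h => ⟨h.1.symm, by rw [Sym2.eq_swap]; exact h.2⟩⟩
  loopless := ⟨fun _ h => h.1.ne rfl⟩

theorem short_le : short G ℓ Δ ≤ G := fun _ _ h => h.1

theorem chop_le : chop H f Δ θ ≤ H := fun _ _ h => h.1

/-- the vertices of the ball around `u` are joined with `u` by short walks of `H` -/
def Good (G : SimpleGraph V) (ℓ : Sym2 V → ℝ) (u : V) (t : ℝ) (H : SimpleGraph V) : Prop :=
  ∀ v, pathDist G ℓ u v ≤ t → ∃ w : H.Walk u v, (w.edges.map ℓ).sum ≤ t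

/-- the ball around `u` is cut -/
def Bad (G : SimpleGraph V) (ℓ : Sym2 V → ℝ) (Δ : ℝ) (u : V) (t : ℝ) (f : V → ℝ) (θ : ℝ) : Prop :=
  ∃ v, pathDist G ℓ u v ≤ t ∧ slab f Δ θ u ≠ slab f Δ θ v

theorem walk_short (hℓ : ∀ e ∈ G.edgeSet, 0 < ℓ e) {a v : V} (w : G.Walk a v)
    (hw : (w.edges.map ℓ).sum ≤ Δ) :
    ∃ w' : (short G ℓ Δ).Walk a v, (w'.edges.map ℓ).sum = (w.edges.map ℓ).sum := by
  induction w with
  | nil => exact ⟨Walk.nil, rfl⟩
  | @cons a b v h p ih =>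
    rw [Walk.edges_cons, List.map_cons, List.sum_cons] at hw
    have h1 := walk_nonneg hℓ p
    have h2 := hℓ _ (G.mem_edgeSet.2 h)
    obtain ⟨p', hp'⟩ := ih (by linarith)
    have ha : (short G ℓ Δ).Adj a b := ⟨h, by linarith⟩
    refine ⟨Walk.cons ha p', ?_⟩
    rw [Walk.edges_cons, List.map_cons, List.sum_cons, Walk.edges_cons, List.map_cons,
      List.sum_cons, hp']

theorem walk_chop [Finite V] (hc : G.Connected) (hℓ : ∀ e ∈ G.edgeSet, 0 < ℓ e) (hH : H ≤ G)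
    {u : V} {t : ℝ} {s : ℤ} (hs : ∀ v, pathDist G ℓ u v ≤ t → slab f Δ θ v = s) {a v : V}
    (w : H.Walk a v) (hw : pathDist G ℓ u a + (w.edges.map ℓ).sum ≤ t) :
    ∃ w' : (chop H f Δ θ).Walk a v, (w'.edges.map ℓ).sum = (w.edges.map ℓ).sum := by
  have hℓH : ∀ e ∈ H.edgeSet, 0 < ℓ e := fun e he => hℓ e (edgeSet_mono hH he)
  induction w with
  | nil => exact ⟨Walk.nil, rfl⟩
  | @cons a b v h p ih =>
    rw [Walk.edges_cons, List.map_cons, List.sum_cons] at hw
    have h1 := walk_nonneg hℓH p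
    have h2 := hℓH _ (H.mem_edgeSet.2 h)
    have h3 := (pathDist_isMet hc hℓ).tri u a b
    have h4 := pathDist_adj hℓ (hH h)
    obtain ⟨p', hp'⟩ := ih (by linarith)
    have ha : (chop H f Δ θ).Adj a b := ⟨h, (hs a (by linarith)).trans (hs b (by linarith)).symm⟩
    refine ⟨Walk.cons ha p', ?_⟩
    rw [Walk.edges_cons, List.map_cons, List.sum_cons, Walk.edges_cons, List.map_cons,
      List.sum_cons, hp']

theorem good_short [Finite V] (hc : G.Connected) (hℓ : ∀ e ∈ G.edgeSet, 0 < ℓ e) {u : V} {t : ℝ}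
    (ht : t ≤ Δ) : Good G ℓ u t (short G ℓ Δ) := by
  intro v hv
  obtain ⟨p, hp⟩ := exists_geodesic hc hℓ u v
  obtain ⟨w, hw⟩ := walk_short (Δ := Δ) hℓ p (by linarith)
  exact ⟨w, by linarith⟩

theorem good_chop [Finite V] (hc : G.Connected) (hℓ : ∀ e ∈ G.edgeSet, 0 < ℓ e) (hH : H ≤ G)
    {u : V} {t : ℝ} (hg : Good G ℓ u t H) (hb : ¬ Bad G ℓ Δ u t f θ) :
    Good G ℓ u t (chop H f Δ θ) := by
  intro v hv
  obtain ⟨w, hw⟩ := hg v hv
  unfold Bad at hb
  push Not at hb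
  obtain ⟨w', hw'⟩ := walk_chop (f := f) (Δ := Δ) (θ := θ) (s := slab f Δ θ u) hc hℓ hH
    (fun v hv => (hb v hv).symm) w (by rw [(pathDist_isMet hc hℓ).self]; linarith)
  exact ⟨w', by linarith⟩

theorem good_lip (hP : Pot H ℓ f r) {u : V} {t : ℝ} (hg : Good G ℓ u t H) (v : V)
    (hv : pathDist G ℓ u v ≤ t) : |f u - f v| ≤ t := by
  obtain ⟨w, hw⟩ := hg v hv
  exact (walk_lip hP.lip w).trans hw

theorem ncard_sum {α : Type} [Fintype α] (p : α → Prop) [DecidablePred p] :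
    (({x | p x} : Set α).ncard : ℝ) = ∑ x, if p x then (1 : ℝ) else 0 := by
  rw [Set.ncard_eq_toFinset_card', Set.toFinset_ofPred, Finset.card_filter]
  push_cast
  rfl

open Classical in
theorem count_bad (h3 : RowCount) {N : ℕ} (hΔ : 0 < Δ) (hN : 0 < N) {u : V} {t : ℝ} (ht : 0 ≤ t)
    (hf : ∀ v, pathDist G ℓ u v ≤ t → |f u - f v| ≤ t) :
    ∑ k : Fin N, (if Bad G ℓ Δ u t f ((k : ℕ) * Δ / N) then (1 : ℝ) else 0) ≤
      N * (2 * t) / Δ + 1 := by
  have h1 := h3 (f u - t) (f u + t) (2 * t) Δ N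
    (by rw [show f u - t - (f u + t) = -(2 * t) by ring, abs_neg, abs_of_nonneg (by linarith)])
    hΔ hN
  rw [ncard_sum] at h1
  refine le_trans (Finset.sum_le_sum fun k _ => ?_) h1
  by_cases hb : Bad G ℓ Δ u t f ((k : ℕ) * Δ / N)
  · obtain ⟨v, hv, hne⟩ := hb
    have h2 := abs_le.1 (hf v hv)
    have hmono : ∀ x y : ℝ, x ≤ y →
        ⌊(x + (k : ℕ) * Δ / N) / Δ⌋ ≤ ⌊(y + (k : ℕ) * Δ / N) / Δ⌋ := fun x y hxy =>
      Int.floor_le_floor (by gcongr)
    have h4 : ⌊(f u - t + (k : ℕ) * Δ / N) / Δ⌋ ≠ ⌊(f u + t + (k : ℕ) * Δ / N) / Δ⌋ := by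
      intro heq
      apply hne
      unfold slab
      have a1 := hmono (f u - t) (f u) (by linarith)
      have a2 := hmono (f u) (f u + t) (by linarith)
      have a3 := hmono (f u - t) (f v) (by linarith)
      have a4 := hmono (f v) (f u + t) (by linarith)
      omega
    rw [if_pos h4]
    split_ifs <;> norm_num
  · rw [if_neg hb]
    split_ifs <;> norm_num

open Classical in
theorem rowPad (h2 : RowPot) (h3 : RowCount) (h5 : RowDiam) : RowPad := by
  intro V _ G ℓ hc hP hℓ Δ N hΔ hN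
  have hH : short G ℓ Δ ≤ G := fun _ _ h => h.1
  have hpos : ∀ {K : SimpleGraph V}, K ≤ G → ∀ e ∈ K.edgeSet, 0 < ℓ e := fun hK e he =>
    hℓ e (SimpleGraph.edgeSet_mono hK he)
  have hch : ∀ (K : SimpleGraph V) (f : V → ℝ) (θ : ℝ), chop K f Δ θ ≤ K :=
    fun K f θ _ _ h => h.1
  obtain ⟨f₁, r₁, p₁⟩ := h2 V (short G ℓ Δ) ℓ (hpos hH)
  have e2 : ∀ a : Fin N, ∃ f r, Pot (chop (short G ℓ Δ) f₁ Δ ((a : ℕ) * Δ / N)) ℓ f r :=
    fun a => h2 V _ ℓ (hpos ((hch _ _ _).trans hH))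
  choose f₂ r₂ p₂ using e2
  have e3 : ∀ a b : Fin N, ∃ f r, Pot (chop (chop (short G ℓ Δ) f₁ Δ ((a : ℕ) * Δ / N)) (f₂ a) Δ
      ((b : ℕ) * Δ / N)) ℓ f r :=
    fun a b => h2 V _ ℓ (hpos ((hch _ _ _).trans ((hch _ _ _).trans hH)))
  choose f₃ r₃ p₃ using e3
  obtain ⟨K₁, hK₁⟩ : ∃ K₁ : Fin N → SimpleGraph V,
      K₁ = fun a : Fin N => chop (short G ℓ Δ) f₁ Δ ((a : ℕ) * Δ / N) := ⟨_, rfl⟩
  obtain ⟨K₂, hK₂⟩ : ∃ K₂ : Fin N → Fin N → SimpleGraph V,
      K₂ = fun a b : Fin N => chop (K₁ a) (f₂ a) Δ ((b : ℕ) * Δ / N) := ⟨_, rfl⟩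
  obtain ⟨K, hK⟩ : ∃ K : Fin N × Fin N × Fin N → SimpleGraph V,
      K = fun ω => chop (K₂ ω.1 ω.2.1) (f₃ ω.1 ω.2.1) Δ ((ω.2.2 : ℕ) * Δ / N) := ⟨_, rfl⟩
  have hK1 : ∀ a, K₁ a = chop (short G ℓ Δ) f₁ Δ ((a : ℕ) * Δ / N) := fun a => by rw [hK₁]
  have hK2 : ∀ a b, K₂ a b = chop (K₁ a) (f₂ a) Δ ((b : ℕ) * Δ / N) := fun a b => by rw [hK₂]
  have hK3 : ∀ ω, K ω = chop (K₂ ω.1 ω.2.1) (f₃ ω.1 ω.2.1) Δ ((ω.2.2 : ℕ) * Δ / N) :=
    fun ω => by rw [hK]
  have q₂ : ∀ a, Pot (K₁ a) ℓ (f₂ a) (r₂ a) := fun a => by rw [hK1]; exact p₂ a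
  have q₃ : ∀ a b, Pot (K₂ a b) ℓ (f₃ a b) (r₃ a b) := fun a b => by
    rw [hK2, hK1]; exact p₃ a b
  have hK1G : ∀ a, K₁ a ≤ G := fun a => by rw [hK1]; exact (hch _ _ _).trans hH
  have hK2G : ∀ a b, K₂ a b ≤ G := fun a b => by rw [hK2]; exact (hch _ _ _).trans (hK1G a)
  have hout : ∀ ω v, (K ω).connectedComponentMk (Quot.out ((K ω).connectedComponentMk v)) =
      (K ω).connectedComponentMk v := fun ω v => Quot.out_eq _
  refine ⟨fun ω v => Quot.out ((K ω).connectedComponentMk v), ?_, ?_⟩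
  · intro ω u v huv
    have hr : (K ω).Reachable u v := by
      apply SimpleGraph.ConnectedComponent.exact
      have h1 := hout ω u
      have h2 := hout ω v
      have h3 : Quot.out ((K ω).connectedComponentMk u) =
        Quot.out ((K ω).connectedComponentMk v) := huv
      rw [← h1, ← h2, h3]
    rw [hK3, hK2, hK1] at hr
    exact h5 V G (short G ℓ Δ) ℓ Δ _ _ _ f₁ (f₂ ω.1) (f₃ ω.1 ω.2.1) r₁ (r₂ ω.1) (r₃ ω.1 ω.2.1)
      hc hP hℓ hH hΔ (fun _ _ h => h.2) p₁ (p₂ _) (p₃ _ _) u v hr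
  · intro u t ht
    have hNR : (0 : ℝ) < N := by exact_mod_cast hN
    by_cases hs : 2 * t ≤ Δ
    · obtain ⟨q, hq⟩ : ∃ q : ℝ, q = N * (2 * t) / Δ + 1 := ⟨_, rfl⟩
      have hq0 : 0 ≤ q := by rw [hq]; positivity
      have g0 : Good G ℓ u t (short G ℓ Δ) := good_short hc hℓ (by linarith)
      -- the three events
      let B₁ : Fin N → Prop := fun a => Bad G ℓ Δ u t f₁ ((a : ℕ) * Δ / N)
      let B₂ : Fin N → Fin N → Prop := fun a b =>
        Good G ℓ u t (K₁ a) ∧ Bad G ℓ Δ u t (f₂ a) ((b : ℕ) * Δ / N)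
      let B₃ : Fin N → Fin N → Fin N → Prop := fun a b c =>
        Good G ℓ u t (K₂ a b) ∧ Bad G ℓ Δ u t (f₃ a b) ((c : ℕ) * Δ / N)
      have c1 : ∑ a : Fin N, (if B₁ a then (1 : ℝ) else 0) ≤ q := by
        rw [hq]
        exact count_bad h3 hΔ hN ht (good_lip p₁ g0)
      have c2 : ∀ a, ∑ b : Fin N, (if B₂ a b then (1 : ℝ) else 0) ≤ q := by
        intro a
        by_cases hg : Good G ℓ u t (K₁ a)
        · have := count_bad (G := G) (ℓ := ℓ) (f := f₂ a) h3 hΔ hN ht (good_lip (q₂ a) hg)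
          rw [← hq] at this
          refine le_trans (Finset.sum_le_sum fun b _ => ?_) this
          by_cases hb : Bad G ℓ Δ u t (f₂ a) ((b : ℕ) * Δ / N)
          · rw [if_pos hb]; split_ifs <;> norm_num
          · rw [if_neg (fun h : B₂ a b => hb h.2), if_neg hb]
        · rw [Finset.sum_eq_zero fun b _ => if_neg (fun h : B₂ a b => hg h.1)]
          exact hq0
      have c3 : ∀ a b, ∑ c : Fin N, (if B₃ a b c then (1 : ℝ) else 0) ≤ q := by
        intro a b
        by_cases hg : Good G ℓ u t (K₂ a b)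
        · have := count_bad (G := G) (ℓ := ℓ) (f := f₃ a b) h3 hΔ hN ht (good_lip (q₃ a b) hg)
          rw [← hq] at this
          refine le_trans (Finset.sum_le_sum fun c _ => ?_) this
          by_cases hb : Bad G ℓ Δ u t (f₃ a b) ((c : ℕ) * Δ / N)
          · rw [if_pos hb]; split_ifs <;> norm_num
          · rw [if_neg (fun h : B₃ a b c => hb h.2), if_neg hb]
        · rw [Finset.sum_eq_zero fun c _ => if_neg (fun h : B₃ a b c => hg h.1)]
          exact hq0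
      have key : ∀ ω : Fin N × Fin N × Fin N,
          (if ∃ v, pathDist G ℓ u v ≤ t ∧ Quot.out ((K ω).connectedComponentMk u) ≠
            Quot.out ((K ω).connectedComponentMk v) then (1 : ℝ) else 0) ≤
          (if B₁ ω.1 then (1 : ℝ) else 0) + (if B₂ ω.1 ω.2.1 then (1 : ℝ) else 0) +
            (if B₃ ω.1 ω.2.1 ω.2.2 then (1 : ℝ) else 0) := by
        intro ω
        have n0 : (if ∃ v, pathDist G ℓ u v ≤ t ∧ Quot.out ((K ω).connectedComponentMk u) ≠
            Quot.out ((K ω).connectedComponentMk v) then (1 : ℝ) else 0) ≤ 1 := by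
          split_ifs <;> norm_num
        have n1 : (0 : ℝ) ≤ (if B₁ ω.1 then (1 : ℝ) else 0) := by split_ifs <;> norm_num
        have n2 : (0 : ℝ) ≤ (if B₂ ω.1 ω.2.1 then (1 : ℝ) else 0) := by split_ifs <;> norm_num
        have n3 : (0 : ℝ) ≤ (if B₃ ω.1 ω.2.1 ω.2.2 then (1 : ℝ) else 0) := by
          split_ifs <;> norm_num
        by_cases b1 : B₁ ω.1
        · rw [if_pos b1] at n1 ⊢
          linarith
        have g1 : Good G ℓ u t (K₁ ω.1) := by
          rw [hK1]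
          exact good_chop hc hℓ hH g0 b1
        by_cases b2 : B₂ ω.1 ω.2.1
        · rw [if_pos b2] at n2 ⊢
          linarith
        have g2 : Good G ℓ u t (K₂ ω.1 ω.2.1) := by
          rw [hK2]
          exact good_chop hc hℓ (hK1G _) g1 fun h => b2 ⟨g1, h⟩
        by_cases b3 : B₃ ω.1 ω.2.1 ω.2.2
        · rw [if_pos b3] at n3 ⊢
          linarith
        have g3 : Good G ℓ u t (K ω) := by
          rw [hK3]
          exact good_chop hc hℓ (hK2G _ _) g2 fun h => b3 ⟨g2, h⟩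
        rw [if_neg]
        · linarith
        · rintro ⟨v, hv, hne⟩
          apply hne
          obtain ⟨w, -⟩ := g3 v hv
          rw [SimpleGraph.ConnectedComponent.sound (⟨w⟩ : (K ω).Reachable u v)]
      have hsum : (({ω | ∃ v, pathDist G ℓ u v ≤ t ∧
          Quot.out ((K ω).connectedComponentMk u) ≠
          Quot.out ((K ω).connectedComponentMk v)} : Set (Fin N × Fin N × Fin N)).ncard : ℝ) ≤
          3 * (N : ℝ) ^ 2 * q := by
        rw [ncard_sum]
        refine (Finset.sum_le_sum fun ω _ => key ω).trans ?_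
        rw [Finset.sum_add_distrib, Finset.sum_add_distrib]
        simp only [Fintype.sum_prod_type]
        have s1 : ∑ a : Fin N, ∑ _b : Fin N, ∑ _c : Fin N, (if B₁ a then (1 : ℝ) else 0) ≤
            (N : ℝ) ^ 2 * q := by
          simp only [Finset.sum_const, Finset.card_univ, Fintype.card_fin, nsmul_eq_mul]
          rw [← Finset.mul_sum, ← Finset.mul_sum]
          nlinarith [mul_le_mul_of_nonneg_left c1 (by positivity : (0 : ℝ) ≤ N * N)]
        have s2 : ∑ a : Fin N, ∑ b : Fin N, ∑ _c : Fin N, (if B₂ a b then (1 : ℝ) else 0) ≤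
            (N : ℝ) ^ 2 * q := by
          have h6 : ∀ a : Fin N, ∑ b : Fin N, ∑ _c : Fin N, (if B₂ a b then (1 : ℝ) else 0) ≤
              N * q := by
            intro a
            simp only [Finset.sum_const, Finset.card_univ, Fintype.card_fin, nsmul_eq_mul]
            rw [← Finset.mul_sum]
            exact mul_le_mul_of_nonneg_left (c2 a) hNR.le
          refine (Finset.sum_le_sum fun a _ => h6 a).trans ?_
          simp only [Finset.sum_const, Finset.card_univ, Fintype.card_fin, nsmul_eq_mul]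
          nlinarith
        have s3 : ∑ a : Fin N, ∑ b : Fin N, ∑ c : Fin N, (if B₃ a b c then (1 : ℝ) else 0) ≤
            (N : ℝ) ^ 2 * q := by
          refine (Finset.sum_le_sum fun a _ => Finset.sum_le_sum fun b _ => c3 a b).trans ?_
          simp only [Finset.sum_const, Finset.card_univ, Fintype.card_fin, nsmul_eq_mul]
          nlinarith
        linarith
      refine hsum.trans (le_of_eq ?_)
      rw [hq]
      field_simp
    · push Not at hs
      have h1 : (({ω | ∃ v, pathDist G ℓ u v ≤ t ∧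
          Quot.out ((K ω).connectedComponentMk u) ≠
          Quot.out ((K ω).connectedComponentMk v)} : Set (Fin N × Fin N × Fin N)).ncard : ℝ) ≤
          (N : ℝ) ^ 3 := by
        have := Set.ncard_le_card ({ω | ∃ v, pathDist G ℓ u v ≤ t ∧
          Quot.out ((K ω).connectedComponentMk u) ≠
          Quot.out ((K ω).connectedComponentMk v)} : Set (Fin N × Fin N × Fin N))
        rw [Nat.card_eq_fintype_card, Fintype.card_prod, Fintype.card_prod, Fintype.card_fin] at this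
        calc _ ≤ ((N * (N * N) : ℕ) : ℝ) := by exact_mod_cast this
          _ = (N : ℝ) ^ 3 := by push_cast; ring
      refine h1.trans ?_
      have h2 : 1 ≤ 2 * t / Δ := by rw [le_div_iff₀ hΔ]; linarith
      have h3 : (0 : ℝ) ≤ 1 / N := by positivity
      nlinarith [pow_pos hNR 3]

end Vale.Agent.P235.R2.H907.KprPad
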