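import Vale.Agent.P235.R2.H582.KprSpec

/-!
P235-M (helper907, third hand): row R4 of the Klein-Plotkin-Rao rows (one more set of the minor).
-/

set_option autoImplicit false

namespace Vale.Agent.P235.R2.H907.Kst

open Vale.Agent.P235 Vale.Agent.P235.Kpr SimpleGraph

variable {V : Type} {G H : SimpleGraph V} {ℓ : Sym2 V → ℝ} {Δ θ : ℝ} {f : V → ℝ} {r : V → V}

open Classical in
/-- the next vertex on the way down -/
noncomputable def nx (hP : Pot H ℓ f r) (v : V) : V :=
  if h : v ≠ r v then (hP.desc v h).choose else v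

theorem nx_adj (hP : Pot H ℓ f r) {v : V} (h : v ≠ r v) : H.Adj v (nx hP v) := by
  unfold nx
  rw [dif_pos h]
  exact (hP.desc v h).choose_spec.1

theorem nx_f (hP : Pot H ℓ f r) {v : V} (h : v ≠ r v) :
    f v = f (nx hP v) + ℓ s(v, nx hP v) := by
  unfold nx
  rw [dif_pos h]
  exact (hP.desc v h).choose_spec.2

theorem nx_root (hP : Pot H ℓ f r) {v : V} (h : v = r v) : nx hP v = v := by
  unfold nx
  rw [dif_neg (not_not.2 h)]

/-- the vertices on the way down -/
noncomputable def it (hP : Pot H ℓ f r) (v : V) : ℕ → V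
  | 0 => v
  | i + 1 => nx hP (it hP v i)

theorem it_succ (hP : Pot H ℓ f r) (v : V) (i : ℕ) : it hP v (i + 1) = nx hP (it hP v i) := rfl

theorem nx_le (hP : Pot H ℓ f r) (hℓ : ∀ e ∈ H.edgeSet, 0 < ℓ e) (v : V) :
    f (nx hP v) ≤ f v := by
  by_cases h : v = r v
  · rw [nx_root hP h]
  · rw [nx_f hP h]
    have := hℓ _ (H.mem_edgeSet.2 (nx_adj hP h))
    linarith

theorem it_anti (hP : Pot H ℓ f r) (hℓ : ∀ e ∈ H.edgeSet, 0 < ℓ e) (v : V) {i j : ℕ}
    (hij : i ≤ j) : f (it hP v j) ≤ f (it hP v i) := by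
  induction j, hij using Nat.le_induction with
  | base => exact le_rfl
  | succ j _ ih => exact (nx_le hP hℓ _).trans ih

theorem it_reach (hP : Pot H ℓ f r) (v : V) (i : ℕ) : H.Reachable v (it hP v i) := by
  induction i with
  | zero => exact Reachable.refl _
  | succ i ih =>
    by_cases h : it hP v i = r (it hP v i)
    · rw [it_succ, nx_root hP h]
      exact ih
    · exact ih.trans (nx_adj hP h).reachable

theorem it_walk (hP : Pot H ℓ f r) (v : V) (i : ℕ) :
    ∃ w : H.Walk v (it hP v i), (w.edges.map ℓ).sum = f v - f (it hP v i) := by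
  induction i with
  | zero => exact ⟨Walk.nil, by simp [it]⟩
  | succ i ih =>
    obtain ⟨w, hw⟩ := ih
    rw [it_succ]
    by_cases h : it hP v i = r (it hP v i)
    · rw [nx_root hP h]
      exact ⟨w, hw⟩
    · refine ⟨w.concat (nx_adj hP h), ?_⟩
      rw [Walk.edges_concat, List.concat_eq_append, List.map_append, List.sum_append, hw,
        nx_f hP h]
      simp only [List.map_cons, List.map_nil, List.sum_cons, List.sum_nil]
      ring

theorem it_root [Finite V] (hP : Pot H ℓ f r) (hℓ : ∀ e ∈ H.edgeSet, 0 < ℓ e) (v : V) :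
    ∃ m, ∀ i, m ≤ i → it hP v i = r v := by
  have key : ∃ m, it hP v m = r (it hP v m) := by
    by_contra hcon
    push Not at hcon
    have h1 : ∀ i, f (it hP v (i + 1)) < f (it hP v i) := by
      intro i
      have h2 := nx_f hP (hcon i)
      have h3 := hℓ _ (H.mem_edgeSet.2 (nx_adj hP (hcon i)))
      rw [it_succ]
      linarith
    have h2 : StrictAnti fun i => f (it hP v i) := strictAnti_nat_of_succ_lt h1
    have h3 : Function.Injective (it hP v) := fun i j hij => h2.injective (by simp only [hij])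
    exact not_injective_infinite_finite _ h3
  obtain ⟨m, hm⟩ := key
  have hr : ∀ i, r (it hP v i) = r v := fun i => (hP.same _ _ (it_reach hP v i)).symm
  refine ⟨m, fun i hi => ?_⟩
  have h4 : ∀ i, m ≤ i → it hP v i = it hP v m := by
    intro i hi
    induction i, hi using Nat.le_induction with
    | base => rfl
    | succ i _ ih => rw [it_succ, ih, nx_root hP hm]
  rw [h4 i hi, hm, hr]

/-- the upper part of the way down -/
def P (hP : Pot H ℓ f r) (v : V) (c : ℝ) : Set V := {u | c ≤ f u ∧ ∃ i, u = it hP v i}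

/-- the lower part of the way down -/
def Q (hP : Pot H ℓ f r) (v : V) (c : ℝ) : Set V := {u | f u < c ∧ ∃ i, u = it hP v i}

theorem reachP (hP : Pot H ℓ f r) (hH : H ≤ G) (hℓ : ∀ e ∈ H.edgeSet, 0 < ℓ e) (v : V) (c : ℝ)
    (i : ℕ) (h0 : v ∈ P hP v c) (hi : it hP v i ∈ P hP v c) :
    (G.induce (P hP v c)).Reachable ⟨v, h0⟩ ⟨it hP v i, hi⟩ := by
  induction i with
  | zero => exact Reachable.refl _
  | succ i ih =>
    have h1 : it hP v i ∈ P hP v c := ⟨hi.1.trans (nx_le hP hℓ _), i, rfl⟩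
    refine (ih h1).trans ?_
    by_cases h : it hP v i = r (it hP v i)
    · have e : (⟨it hP v i, h1⟩ : P hP v c) = ⟨it hP v (i + 1), hi⟩ :=
        Subtype.ext (nx_root hP h).symm
      rw [e]
    · exact Adj.reachable (by exact hH (nx_adj hP h))

theorem reachQ (hP : Pot H ℓ f r) (hH : H ≤ G) (hℓ : ∀ e ∈ H.edgeSet, 0 < ℓ e) (v : V) (c : ℝ)
    (i j : ℕ) (h0 : it hP v i ∈ Q hP v c) (hi : it hP v (i + j) ∈ Q hP v c) :
    (G.induce (Q hP v c)).Reachable ⟨it hP v i, h0⟩ ⟨it hP v (i + j), hi⟩ := by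
  induction j with
  | zero => exact Reachable.refl _
  | succ j ih =>
    have h1 : it hP v (i + j) ∈ Q hP v c :=
      ⟨(it_anti hP hℓ v (Nat.le_add_right i j)).trans_lt h0.1, i + j, rfl⟩
    refine (ih h1).trans ?_
    by_cases h : it hP v (i + j) = r (it hP v (i + j))
    · have e : (⟨it hP v (i + j), h1⟩ : Q hP v c) = ⟨it hP v (i + (j + 1)), hi⟩ :=
        Subtype.ext (nx_root hP h).symm
      rw [e]
    · exact Adj.reachable (by exact hH (nx_adj hP h))

theorem dist_it [Finite V] (hP : Pot H ℓ f r) (hH : H ≤ G) (hℓ : ∀ e ∈ G.edgeSet, 0 < ℓ e)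
    (v : V) (i : ℕ) : pathDist G ℓ v (it hP v i) ≤ f v - f (it hP v i) := by
  obtain ⟨w, hw⟩ := it_walk hP v i
  have h := pathDist_le hℓ (w.mapLe hH)
  rw [Walk.edges_mapLe_eq_edges, hw] at h
  exact h

/-- a way down inside a slab is a walk of the chopped graph -/
theorem chop_walk (hP : Pot H ℓ f r) (hℓ : ∀ e ∈ H.edgeSet, 0 < ℓ e) (v : V) (i : ℕ)
    (hs : ∀ u, f (it hP v i) ≤ f u → f u ≤ f v → slab f Δ θ u = slab f Δ θ v) :
    ∃ w : (chop H f Δ θ).Walk v (it hP v i), (w.edges.map ℓ).sum = f v - f (it hP v i) := by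
  induction i with
  | zero => exact ⟨Walk.nil, by simp [it]⟩
  | succ i ih =>
    have h1 := nx_le hP hℓ (it hP v i)
    obtain ⟨w, hw⟩ := ih fun u hu hu' => hs u (h1.trans hu) hu'
    rw [it_succ] at hs ⊢
    by_cases h : it hP v i = r (it hP v i)
    · rw [nx_root hP h]
      exact ⟨w, hw⟩
    · have h2 : f (it hP v i) ≤ f v := it_anti hP hℓ v (Nat.zero_le i)
      have ha : (chop H f Δ θ).Adj (it hP v i) (nx hP (it hP v i)) :=
        ⟨nx_adj hP h, (hs _ h1 h2).trans (hs _ le_rfl (h1.trans h2)).symm⟩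
      refine ⟨w.concat ha, ?_⟩
      rw [Walk.edges_concat, List.concat_eq_append, List.map_append, List.sum_append, hw,
        nx_f hP h]
      simp only [List.map_cons, List.map_nil, List.sum_cons, List.sum_nil]
      ring

theorem slab_reach {u v : V} (h : (chop H f Δ θ).Reachable u v) :
    slab f Δ θ u = slab f Δ θ v := by
  obtain ⟨w⟩ := h
  induction w with
  | nil => rfl
  | cons h p ih => exact h.2.trans ih

theorem chop_le : chop H f Δ θ ≤ H := fun _ _ h => h.1

theorem slab_bounds (hΔ : 0 < Δ) {v : V} {s : ℤ} (h : slab f Δ θ v = s) :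
    s * Δ - θ ≤ f v ∧ f v < s * Δ - θ + Δ := by
  unfold slab at h
  have h1 := Int.floor_eq_iff.1 h
  rw [le_div_iff₀ hΔ, div_lt_iff₀ hΔ] at h1
  constructor <;> nlinarith

theorem slab_of_bounds (hΔ : 0 < Δ) {v : V} {s : ℤ} (h1 : s * Δ - θ ≤ f v)
    (h2 : f v < s * Δ - θ + Δ) : slab f Δ θ v = s := by
  unfold slab
  rw [Int.floor_eq_iff, le_div_iff₀ hΔ, div_lt_iff₀ hΔ]
  constructor <;> nlinarith


theorem rowStage : RowStage := by
  intro V _ G H ℓ Δ θ ρ x n A X y f r hc hℓ hH hΔ hρ hle hP hx hS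
  classical
  have hℓH : ∀ e ∈ H.edgeSet, 0 < ℓ e := fun e he => hℓ e (edgeSet_mono hH he)
  have hM := pathDist_isMet hc hℓ
  -- the slab
  obtain ⟨s, hs⟩ : ∃ s, slab f Δ θ (x 0) = s := ⟨_, rfl⟩
  obtain ⟨b, hb⟩ : ∃ b, b = s * Δ - θ := ⟨_, rfl⟩
  have hin : ∀ v, (chop H f Δ θ).Reachable (x 0) v → b ≤ f v ∧ f v < b + Δ := by
    intro v hv
    have h1 := slab_bounds hΔ ((slab_reach hv).symm.trans hs)
    rw [← hb] at h1
    exact h1
  have hXin : ∀ k, ∀ v ∈ X k, b ≤ f v ∧ f v < b + Δ := fun k v hv => hin v (hS.xreach k v hv)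
  have hAin : ∀ j < n, ∀ a ∈ A j, b ≤ f a ∧ f a < b + Δ :=
    fun j hj a ha => hin a (hS.areach j hj a ha)
  have hyX := hS.ymem
  have hreachH : ∀ {v}, (chop H f Δ θ).Reachable (x 0) v → H.Reachable (x 0) v :=
    fun h => h.mono chop_le
  have hxr : ∀ k, r (x k) = r (x 0) := fun k =>
    (hP.same _ _ (hreachH (hS.xreach k _ (hS.xmem k)))).symm
  have hyr : ∀ k, r (y k) = r (x 0) := fun k =>
    (hP.same _ _ (hreachH (hS.xreach k _ (hyX k)))).symm
  -- the root is far below
  have hb3 : 0 < b - 3 * Δ := by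
    by_contra hcon
    push Not at hcon
    have h1 : ∀ k, pathDist G ℓ (x k) (r (x 0)) < 4 * Δ := by
      intro k
      obtain ⟨m, hm⟩ := it_root hP hℓH (x k)
      have h2 := dist_it hP hH hℓ (x k) m
      rw [hm m le_rfl, hP.zero, hxr k] at h2
      have h3 := (hXin k _ (hS.xmem k)).2
      linarith
    have h2 := h1 0
    have h3 := h1 1
    have h4 := hM.tri (x 0) (r (x 0)) (x 1)
    rw [hM.symm (r (x 0)) (x 1)] at h4
    have h5 := hx 0 1 (by decide)
    linarith
  obtain ⟨c, hcd⟩ : ∃ c, c = b - 3 * Δ := ⟨_, rfl⟩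
  -- the first vertex below a level
  have hfirst : ∀ (k : Fin 3) (e : ℝ), 0 < e → e ≤ b → ∃ i, e ≤ f (it hP (y k) i) ∧
      f (it hP (y k) (i + 1)) < e ∧ G.Adj (it hP (y k) i) (it hP (y k) (i + 1)) ∧
      f (it hP (y k) i) - Δ ≤ f (it hP (y k) (i + 1)) := by
    intro k e he heb
    obtain ⟨m, hm⟩ := it_root hP hℓH (y k)
    have hex : ∃ i, f (it hP (y k) i) < e := ⟨m, by rw [hm m le_rfl, hP.zero]; exact he⟩
    obtain ⟨i, hi⟩ : ∃ i, Nat.find hex = i + 1 := by
      refine Nat.exists_eq_succ_of_ne_zero fun h0 => ?_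
      have h1 := Nat.find_spec hex
      rw [h0] at h1
      have h2 := (hXin k _ (hyX k)).1
      have h3 : f (y k) < e := h1
      linarith
    have h1 := Nat.find_spec hex
    have h2 := Nat.find_min hex (show i < Nat.find hex by omega)
    rw [hi] at h1
    rw [not_lt] at h2
    have hroot : it hP (y k) i ≠ r (it hP (y k) i) := by
      intro h3
      have h4 := hP.zero (it hP (y k) i)
      rw [← h3] at h4
      linarith
    refine ⟨i, h2, h1, hH (nx_adj hP hroot), ?_⟩
    have h5 := nx_f hP hroot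
    have h6 := hle _ _ (nx_adj hP hroot)
    rw [it_succ]
    linarith
  -- the new sets
  obtain ⟨S, hSdef⟩ : ∃ S : Set V, S = ⋃ k, Q hP (y k) c := ⟨_, rfl⟩
  obtain ⟨A', hA'⟩ : ∃ A' : ℕ → Set V, A' = fun j => if j = n then S else A j := ⟨_, rfl⟩
  have hA'n : A' n = S := by rw [hA']; simp
  have hA'j : ∀ j < n, A' j = A j := fun j hj => by
    rw [hA']; simp only; rw [if_neg hj.ne]
  obtain ⟨X', hX'⟩ : ∃ X' : Fin 3 → Set V, X' = fun k => X k ∪ P hP (y k) c := ⟨_, rfl⟩
  have hX'k : ∀ k, X' k = X k ∪ P hP (y k) c := fun k => by rw [hX']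
  choose i1 hi1 using fun k => hfirst k (b - Δ) (by linarith) (by linarith)
  obtain ⟨y', hy'⟩ : ∃ y' : Fin 3 → V, y' = fun k => it hP (y k) (i1 k + 1) := ⟨_, rfl⟩
  have hy'k : ∀ k, y' k = it hP (y k) (i1 k + 1) := fun k => by rw [hy']
  have hy'1 : ∀ k, f (y' k) < b - Δ := fun k => by rw [hy'k]; exact (hi1 k).2.1
  have hy'2 : ∀ k, b - 2 * Δ ≤ f (y' k) := fun k => by
    rw [hy'k]
    have := (hi1 k).1
    have := (hi1 k).2.2.2
    linarith
  have hSf : ∀ v ∈ S, f v < c := by
    intro v hv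
    rw [hSdef] at hv
    obtain ⟨k, hk⟩ := Set.mem_iUnion.1 hv
    exact hk.1
  have hyP : ∀ k, y k ∈ P hP (y k) c := fun k =>
    ⟨by have := (hXin k _ (hyX k)).1; linarith, 0, rfl⟩
  have hrc : f (r (x 0)) < c := by rw [hP.zero]; linarith
  have hrQ : ∀ k, r (x 0) ∈ Q hP (y k) c := by
    intro k
    obtain ⟨m, hm⟩ := it_root hP hℓH (y k)
    exact ⟨hrc, m, by rw [hm m le_rfl, hyr k]⟩
  have hPX : ∀ k, ∀ v ∈ P hP (y k) c, H.Reachable (x 0) v := by
    rintro k v ⟨-, i, rfl⟩
    exact (hreachH (hS.xreach k _ (hyX k))).trans (it_reach hP _ i)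
  -- the part of the way down above `b` misses the old sets
  have hmiss : ∀ j < n, ∀ k, ∀ a ∈ A j, a ∉ P hP (y k) c := by
    rintro j hj k a ha ⟨-, i, rfl⟩
    have h1 := hAin j hj _ ha
    have h2 := hXin k _ (hyX k)
    have hsy : slab f Δ θ (y k) = s := (slab_reach (hS.xreach k _ (hyX k))).symm.trans hs
    obtain ⟨w, hw⟩ := chop_walk (Δ := Δ) (θ := θ) hP hℓH (y k) i fun u hu hu' => by
      rw [hsy]
      refine slab_of_bounds hΔ ?_ ?_
      · rw [← hb]; linarith
      · rw [← hb]; linarith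
    have h3 := hS.far j hj k _ ha w
    linarith
  refine ⟨A', X', y', ?_⟩
  constructor
  · -- aconn
    intro j hj
    rcases Nat.lt_succ_iff_lt_or_eq.1 hj with h | rfl
    · rw [hA'j j h]
      exact hS.aconn j h
    · rw [hA'n, hSdef]
      have h0 : r (x 0) ∈ ⋃ k, Q hP (y k) c := Set.mem_iUnion.2 ⟨0, hrQ 0⟩
      refine induce_connected_of_patches (r (x 0)) h0 fun {v} hv => ?_
      obtain ⟨k, hk⟩ := Set.mem_iUnion.1 hv
      refine ⟨Q hP (y k) c, Set.subset_iUnion (fun k => Q hP (y k) c) k, hrQ k, hk, ?_⟩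
      obtain ⟨hk1, i, rfl⟩ := hk
      obtain ⟨m, hm⟩ := it_root hP hℓH (y k)
      have h1 := hm (i + m) (by omega)
      have h2 : it hP (y k) (i + m) ∈ Q hP (y k) c := ⟨by rw [h1, hP.zero]; linarith, _, rfl⟩
      have h3 := reachQ hP hH hℓH (y k) c i m ⟨hk1, i, rfl⟩ h2
      have e : (⟨it hP (y k) (i + m), h2⟩ : Q hP (y k) c) = ⟨r (x 0), hrQ k⟩ :=
        Subtype.ext (by show it hP (y k) (i + m) = r (x 0); rw [h1, hyr k])
      rw [e] at h3
      exact h3.symm
  · -- adisj
    intro i hi j hj hij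
    rcases Nat.lt_succ_iff_lt_or_eq.1 hi with h | rfl
    · rcases Nat.lt_succ_iff_lt_or_eq.1 hj with h' | rfl
      · rw [hA'j i h, hA'j j h']
        exact hS.adisj i h j h' hij
      · rw [hA'j i h, hA'n, Set.disjoint_left]
        intro a ha ha'
        have h1 := (hAin i h a ha).1
        have h2 := hSf a ha'
        linarith
    · rcases Nat.lt_succ_iff_lt_or_eq.1 hj with h' | rfl
      · rw [hA'j j h', hA'n, Set.disjoint_left]
        intro a ha ha'
        have h1 := (hAin j h' a ha').1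
        have h2 := hSf a ha
        linarith
      · exact absurd rfl hij
  · -- xconn
    intro k
    rw [hX'k k]
    refine induce_connected_of_patches (y k) (Or.inl (hyX k)) fun {v} hv => ?_
    rcases hv with hv | hv
    · exact ⟨X k, Set.subset_union_left, hyX k, hv, (hS.xconn k).preconnected _ _⟩
    · refine ⟨P hP (y k) c, Set.subset_union_right, hyP k, hv, ?_⟩
      obtain ⟨hv1, i, rfl⟩ := hv
      exact reachP hP hH hℓH (y k) c i (hyP k) ⟨hv1, i, rfl⟩
  · -- ax
    intro j hj k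
    rw [hX'k k]
    rcases Nat.lt_succ_iff_lt_or_eq.1 hj with h | rfl
    · rw [hA'j j h, Set.disjoint_left]
      rintro a ha (ha' | ha')
      · exact Set.disjoint_left.1 (hS.ax j h k) ha ha'
      · exact hmiss j h k a ha ha'
    · rw [hA'n, Set.disjoint_left]
      rintro a ha (ha' | ha')
      · have h1 := (hXin k a ha').1
        have h2 := hSf a ha
        linarith
      · have h1 := ha'.1
        have h2 := hSf a ha
        linarith
  · -- adj
    intro j hj k
    rw [hX'k k]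
    rcases Nat.lt_succ_iff_lt_or_eq.1 hj with h | rfl
    · rw [hA'j j h]
      obtain ⟨a, ha, v, hv, hav⟩ := hS.adj j h k
      exact ⟨a, ha, v, Or.inl hv, hav⟩
    · obtain ⟨i, h1, h2, h3, -⟩ := hfirst k c (by linarith) (by linarith)
      refine ⟨it hP (y k) (i + 1), ?_, it hP (y k) i, Or.inr ⟨h1, i, rfl⟩, h3.symm⟩
      rw [hA'n, hSdef]
      exact Set.mem_iUnion.2 ⟨k, h2, _, rfl⟩
  · -- xmem
    intro k
    rw [hX'k k]
    exact Or.inl (hS.xmem k)
  · -- ymem
    intro k
    rw [hX'k k]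
    exact Or.inr ⟨by have := hy'2 k; linarith, i1 k + 1, hy'k k⟩
  · -- ball
    intro k v hv
    rw [hX'k k] at hv
    rcases hv with hv | ⟨hv, i, rfl⟩
    · have := hS.ball k v hv
      linarith
    · have h1 := hS.ball k _ (hyX k)
      have h2 := dist_it hP hH hℓ (y k) i
      have h3 := hM.tri (x k) (y k) (it hP (y k) i)
      have h4 := (hXin k _ (hyX k)).2
      linarith
  · -- areach
    intro j hj a ha
    rcases Nat.lt_succ_iff_lt_or_eq.1 hj with h | rfl
    · rw [hA'j j h] at ha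
      exact hreachH (hS.areach j h a ha)
    · rw [hA'n, hSdef] at ha
      obtain ⟨k, -, i, rfl⟩ := Set.mem_iUnion.1 ha
      exact (hreachH (hS.xreach k _ (hyX k))).trans (it_reach hP _ i)
  · -- xreach
    intro k v hv
    rw [hX'k k] at hv
    rcases hv with hv | hv
    · exact hreachH (hS.xreach k v hv)
    · exact hPX k v hv
  · -- far
    intro j hj k a ha w
    have h1 := walk_lip hP.lip w
    have h1' := abs_le.1 h1
    rcases Nat.lt_succ_iff_lt_or_eq.1 hj with h | rfl
    · rw [hA'j j h] at ha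
      have h2 := (hAin j h a ha).1
      have h3 := hy'1 k
      linarith [h1'.1]
    · rw [hA'n] at ha
      have h2 := hSf a ha
      have h3 := hy'2 k
      linarith [h1'.2]

end Vale.Agent.P235.R2.H907.Kst
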